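import Mathlib

namespace Vale.Agent.P154

abbrev V := Fin 3 → ℝ

noncomputable def aF (p : V) : ℝ := 1 - 3 * (p 0 * p 1 + p 1 * p 2 + p 2 * p 0)

noncomputable def A3 (p : V) : ℝ := (3 * p 0 - 1) * (3 * p 1 - 1) * (3 * p 2 - 1) / 2

noncomputable def oF (p : V) : ℝ := A3 p - 2 / 3 * (aF p) ^ 2

noncomputable def gF (p : V) : ℝ := 11 / 6 * aF p - 2 / 3 * A3 p

noncomputable def epsF (p : V) : ℝ := 27 * p 0 * p 1 * p 2

noncomputable def Dm (p q : V) : ℝ := 3 * ∑ i, p i * q i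

noncomputable def merge (p q : V) : V := fun i => p i * q i / ∑ j, p j * q j

def InSimplex (p : V) : Prop := (∀ i, 0 < p i) ∧ ∑ i, p i = 1

def J1 (c : ℝ) : Prop := ∀ p q : V, InSimplex p → InSimplex q →
  (∑ g : Equiv.Perm (Fin 3), Dm p (q ∘ g) * aF (merge p (q ∘ g))) / 6 ≤
    aF p + aF q - oF p * gF q - oF q * gF p - c * (aF p * (1 - aF p) * (aF q * (1 - aF q)))

def J2 : Prop := ∀ p q : V, InSimplex p → InSimplex q →
  oF p * epsF q + oF q * epsF p ≤
    (∑ g : Equiv.Perm (Fin 3), Dm p (q ∘ g) * oF (merge p (q ∘ g))) / 6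

/-- generic form of `J1` for arbitrary cone data `o`, `g` -/
def J1g (o g : V → ℝ) (c : ℝ) : Prop := ∀ p q : V, InSimplex p → InSimplex q →
  (∑ s : Equiv.Perm (Fin 3), Dm p (q ∘ s) * aF (merge p (q ∘ s))) / 6 ≤
    aF p + aF q - o p * g q - o q * g p - c * (aF p * (1 - aF p) * (aF q * (1 - aF q)))

/-- generic form of `J2` for arbitrary cone data `o`, `h` -/
def J2g (o h : V → ℝ) : Prop := ∀ p q : V, InSimplex p → InSimplex q →
  o p * h q + o q * h p ≤
    (∑ s : Equiv.Perm (Fin 3), Dm p (q ∘ s) * o (merge p (q ∘ s))) / 6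

theorem J1g_of_J1 {c : ℝ} (h : J1 c) : J1g oF gF c := h

theorem J2g_of_J2 (h : J2) : J2g oF epsF := h

end Vale.Agent.P154
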