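import Mathlib

namespace Vale.Agent.P154

theorem tangent_inv {x mu : ℝ} (hx : 0 < x) (hmu : 0 < mu) : 2 / mu - x / mu ^ 2 ≤ 1 / x := by
  have h : 1 / x - (2 / mu - x / mu ^ 2) = (mu - x) ^ 2 / (x * mu ^ 2) := by
    field_simp
    ring
  have h2 : 0 ≤ (mu - x) ^ 2 / (x * mu ^ 2) := by positivity
  linarith

theorem three_frac {D1 D2 D3 M1 M2 M3 N : ℝ} (h1 : 0 < D1) (h2 : 0 < D2) (h3 : 0 < D3)
    (h : M1 * D2 * D3 + M2 * D1 * D3 + M3 * D1 * D2 = N) :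
    M1 / D1 + M2 / D2 + M3 / D3 = N / (D1 * D2 * D3) := by
  rw [← h]
  field_simp

theorem abs_J1 {D1 D2 D3 D4 D5 D6 M1 M2 M3 M4 M5 M6 Nn Q2 : ℝ}
    (h1 : 0 < D1) (h2 : 0 < D2) (h3 : 0 < D3) (h4 : 0 < D4) (h5 : 0 < D5) (h6 : 0 < D6)
    (hN : 0 ≤ Nn)
    (he : M1 * D2 * D3 + M2 * D1 * D3 + M3 * D1 * D2 = 3 * Nn)
    (ho : M4 * D5 * D6 + M5 * D4 * D6 + M6 * D4 * D5 = 3 * Nn)
    (hQ : D1 * D2 * D3 + D4 * D5 * D6 = Q2)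
    (hD : D1 + D2 + D3 + D4 + D5 + D6 = 6) :
    ((D1 - M1 / D1) + (D2 - M2 / D2) + (D3 - M3 / D3) + (D4 - M4 / D4) + (D5 - M5 / D5)
      + (D6 - M6 / D6)) / 6 ≤ 1 - 2 * Nn / Q2 := by
  have e1 := three_frac h1 h2 h3 he
  have e2 := three_frac h4 h5 h6 ho
  have hPm : 0 < D1 * D2 * D3 := by positivity
  have hPp : 0 < D4 * D5 * D6 := by positivity
  have hQ0 : 0 < Q2 := by rw [← hQ]; positivity
  have t1 := tangent_inv hPm (half_pos hQ0)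
  have t2 := tangent_inv hPp (half_pos hQ0)
  have t3 : 4 / Q2 ≤ 1 / (D1 * D2 * D3) + 1 / (D4 * D5 * D6) := by
    have : 2 / (Q2 / 2) - (D1 * D2 * D3) / (Q2 / 2) ^ 2 + (2 / (Q2 / 2) - (D4 * D5 * D6) / (Q2 / 2) ^ 2)
        = 4 / Q2 := by
      have hh : D4 * D5 * D6 = Q2 - D1 * D2 * D3 := by linarith
      rw [hh]
      field_simp
      ring
    linarith
  have t4 : 3 * Nn * (4 / Q2) ≤ 3 * Nn * (1 / (D1 * D2 * D3) + 1 / (D4 * D5 * D6)) := by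
    gcongr
  have e3 : 3 * Nn * (1 / (D1 * D2 * D3) + 1 / (D4 * D5 * D6)) =
      (M1 / D1 + M2 / D2 + M3 / D3) + (M4 / D4 + M5 / D5 + M6 / D6) := by
    rw [e1, e2]
    ring
  have e4 : 3 * Nn * (4 / Q2) = 6 * (2 * Nn / Q2) := by ring
  linarith

theorem abs_J2 {D1 D2 D3 D4 D5 D6 M1 M2 M3 M4 M5 M6 Nn Q2 Pi mu ee : ℝ}
    (h1 : 0 < D1) (h2 : 0 < D2) (h3 : 0 < D3) (h4 : 0 < D4) (h5 : 0 < D5) (h6 : 0 < D6)
    (m1 : 0 < M1) (m2 : 0 < M2) (m3 : 0 < M3) (m4 : 0 < M4) (m5 : 0 < M5) (m6 : 0 < M6)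
    (hmu : 0 < mu) (hee : 0 ≤ ee)
    (he : M1 * D2 * D3 + M2 * D1 * D3 + M3 * D1 * D2 = 3 * Nn)
    (ho : M4 * D5 * D6 + M5 * D4 * D6 + M6 * D4 * D5 = 3 * Nn)
    (hQ : D1 * D2 * D3 + D4 * D5 * D6 = Q2)
    (hP : (D1 * D2 * D3) * (D4 * D5 * D6) = Pi)
    (hD : D1 + D2 + D3 + D4 + D5 + D6 = 6)
    (hM : M1 + M2 + M3 + M4 + M5 + M6 = 6 * mu) :
    (ee / mu + 1 - Nn * Q2 / Pi) / 2 ≤
    ((ee / M1 + D1 - 2 * M1 / D1) / 2 + (ee / M2 + D2 - 2 * M2 / D2) / 2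
      + (ee / M3 + D3 - 2 * M3 / D3) / 2 + (ee / M4 + D4 - 2 * M4 / D4) / 2
      + (ee / M5 + D5 - 2 * M5 / D5) / 2 + (ee / M6 + D6 - 2 * M6 / D6) / 2) / 6 := by
  have e1 := three_frac h1 h2 h3 he
  have e2 := three_frac h4 h5 h6 ho
  have hPm : 0 < D1 * D2 * D3 := by positivity
  have hPp : 0 < D4 * D5 * D6 := by positivity
  have e3 : (M1 / D1 + M2 / D2 + M3 / D3) + (M4 / D4 + M5 / D5 + M6 / D6) = 3 * (Nn * Q2 / Pi) := by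
    rw [e1, e2, ← hQ, ← hP]
    field_simp
    ring
  have t : 6 / mu ≤ 1 / M1 + 1 / M2 + 1 / M3 + 1 / M4 + 1 / M5 + 1 / M6 := by
    have a1 := tangent_inv m1 hmu
    have a2 := tangent_inv m2 hmu
    have a3 := tangent_inv m3 hmu
    have a4 := tangent_inv m4 hmu
    have a5 := tangent_inv m5 hmu
    have a6 := tangent_inv m6 hmu
    have : 6 * (2 / mu) - (M1 + M2 + M3 + M4 + M5 + M6) / mu ^ 2 = 6 / mu := by
      rw [hM]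
      field_simp
      ring
    have h7 : (M1 + M2 + M3 + M4 + M5 + M6) / mu ^ 2 = M1 / mu ^ 2 + M2 / mu ^ 2 + M3 / mu ^ 2
        + M4 / mu ^ 2 + M5 / mu ^ 2 + M6 / mu ^ 2 := by ring
    linarith
  have t2 : ee * (6 / mu) ≤ ee * (1 / M1 + 1 / M2 + 1 / M3 + 1 / M4 + 1 / M5 + 1 / M6) := by
    gcongr
  have e5 : ee * (1 / M1 + 1 / M2 + 1 / M3 + 1 / M4 + 1 / M5 + 1 / M6) =
      ee / M1 + ee / M2 + ee / M3 + ee / M4 + ee / M5 + ee / M6 := by ring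
  have e6 : ee * (6 / mu) = 6 * (ee / mu) := by ring
  have e7 : ∀ M D : ℝ, 2 * M / D = 2 * (M / D) := fun M D => by ring
  simp only [e7]
  linarith

end Vale.Agent.P154
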