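import Vale.Agent.P154.CertDefs

namespace Vale.Agent.P154

noncomputable def Dt (x0 x1 x2 y0 y1 y2 : ℝ) : ℝ := 3 * (x0 * y0 + x1 * y1 + x2 * y2)

noncomputable def Mt (x0 x1 x2 y0 y1 y2 : ℝ) : ℝ :=
  27 * (x0 * y0 * (x1 * y1) + x1 * y1 * (x2 * y2) + x2 * y2 * (x0 * y0))

noncomputable def Et (x0 x1 x2 : ℝ) : ℝ := 3 * (x0 * x1 + x1 * x2 + x2 * x0)

noncomputable def et (x0 x1 x2 : ℝ) : ℝ := 27 * x0 * x1 * x2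

variable {p0 p1 p2 q0 q1 q2 : ℝ}

theorem id_D (hp : p0 + p1 + p2 = 1) (hq : q0 + q1 + q2 = 1) :
    Dt p0 p1 p2 q0 q1 q2 + Dt p0 p1 p2 q1 q2 q0 + Dt p0 p1 p2 q2 q0 q1
      + Dt p0 p1 p2 q1 q0 q2 + Dt p0 p1 p2 q2 q1 q0 + Dt p0 p1 p2 q0 q2 q1 = 6 := by
  have : Dt p0 p1 p2 q0 q1 q2 + Dt p0 p1 p2 q1 q2 q0 + Dt p0 p1 p2 q2 q0 q1
      + Dt p0 p1 p2 q1 q0 q2 + Dt p0 p1 p2 q2 q1 q0 + Dt p0 p1 p2 q0 q2 q1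
      = 6 * (p0 + p1 + p2) * (q0 + q1 + q2) := by
    unfold Dt; ring
  rw [this, hp, hq]; norm_num

theorem id_M :
    Mt p0 p1 p2 q0 q1 q2 + Mt p0 p1 p2 q1 q2 q0 + Mt p0 p1 p2 q2 q0 q1
      + Mt p0 p1 p2 q1 q0 q2 + Mt p0 p1 p2 q2 q1 q0 + Mt p0 p1 p2 q0 q2 q1
      = 6 * (Et p0 p1 p2 * Et q0 q1 q2) := by
  unfold Mt Et; ring

theorem id_e (hp : p0 + p1 + p2 = 1) (hq : q0 + q1 + q2 = 1) :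
    Mt p0 p1 p2 q0 q1 q2 * Dt p0 p1 p2 q1 q2 q0 * Dt p0 p1 p2 q2 q0 q1
      + Mt p0 p1 p2 q1 q2 q0 * Dt p0 p1 p2 q0 q1 q2 * Dt p0 p1 p2 q2 q0 q1
      + Mt p0 p1 p2 q2 q0 q1 * Dt p0 p1 p2 q0 q1 q2 * Dt p0 p1 p2 q1 q2 q0
      = 3 * NnF (Et p0 p1 p2) (et p0 p1 p2) (Et q0 q1 q2) (et q0 q1 q2) := by
  obtain rfl : p2 = 1 - p0 - p1 := by linarith
  obtain rfl : q2 = 1 - q0 - q1 := by linarith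
  unfold Mt Dt NnF Et et
  ring

theorem id_o (hp : p0 + p1 + p2 = 1) (hq : q0 + q1 + q2 = 1) :
    Mt p0 p1 p2 q1 q0 q2 * Dt p0 p1 p2 q2 q1 q0 * Dt p0 p1 p2 q0 q2 q1
      + Mt p0 p1 p2 q2 q1 q0 * Dt p0 p1 p2 q1 q0 q2 * Dt p0 p1 p2 q0 q2 q1
      + Mt p0 p1 p2 q0 q2 q1 * Dt p0 p1 p2 q1 q0 q2 * Dt p0 p1 p2 q2 q1 q0
      = 3 * NnF (Et p0 p1 p2) (et p0 p1 p2) (Et q0 q1 q2) (et q0 q1 q2) := by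
  obtain rfl : p2 = 1 - p0 - p1 := by linarith
  obtain rfl : q2 = 1 - q0 - q1 := by linarith
  unfold Mt Dt NnF Et et
  ring

theorem id_Q (hp : p0 + p1 + p2 = 1) (hq : q0 + q1 + q2 = 1) :
    Dt p0 p1 p2 q0 q1 q2 * Dt p0 p1 p2 q1 q2 q0 * Dt p0 p1 p2 q2 q0 q1
      + Dt p0 p1 p2 q1 q0 q2 * Dt p0 p1 p2 q2 q1 q0 * Dt p0 p1 p2 q0 q2 q1
      = Q2F (Et p0 p1 p2) (et p0 p1 p2) (Et q0 q1 q2) (et q0 q1 q2) := by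
  obtain rfl : p2 = 1 - p0 - p1 := by linarith
  obtain rfl : q2 = 1 - q0 - q1 := by linarith
  unfold Dt Q2F Et et
  ring

theorem id_P (hp : p0 + p1 + p2 = 1) (hq : q0 + q1 + q2 = 1) :
    (Dt p0 p1 p2 q0 q1 q2 * Dt p0 p1 p2 q1 q2 q0 * Dt p0 p1 p2 q2 q0 q1)
      * (Dt p0 p1 p2 q1 q0 q2 * Dt p0 p1 p2 q2 q1 q0 * Dt p0 p1 p2 q0 q2 q1)
      = PiF (Et p0 p1 p2) (et p0 p1 p2) (Et q0 q1 q2) (et q0 q1 q2) := by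
  obtain rfl : p2 = 1 - p0 - p1 := by linarith
  obtain rfl : q2 = 1 - q0 - q1 := by linarith
  unfold Dt PiF Et et
  ring

end Vale.Agent.P154
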