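import Vale.Agent.P154.NewCone
import Vale.Agent.P154.BridgeAbs
import Vale.Agent.P154.BridgeId

namespace Vale.Agent.P154

open Equiv

theorem univ_perm3 : (Finset.univ : Finset (Perm (Fin 3))) =
    {1, swap 0 1, swap 0 2, swap 1 2, swap 0 1 * swap 1 2, swap 1 2 * swap 0 1} := by
  decide

theorem sum_perm3 (G : Perm (Fin 3) → ℝ) : ∑ s, G s =
    G 1 + G (swap 0 1) + G (swap 0 2) + G (swap 1 2) + G (swap 0 1 * swap 1 2)
      + G (swap 1 2 * swap 0 1) := by
  rw [univ_perm3]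
  rw [Finset.sum_insert (by decide), Finset.sum_insert (by decide), Finset.sum_insert (by decide),
    Finset.sum_insert (by decide), Finset.sum_insert (by decide), Finset.sum_singleton]
  ring

theorem inSimplex_comp {q : V} (h : InSimplex q) (s : Perm (Fin 3)) : InSimplex (q ∘ s) :=
  ⟨fun i => h.1 (s i), by rw [← h.2]; exact Equiv.sum_comp s q⟩

theorem Dm_eq (p w : V) : Dm p w = Dt (p 0) (p 1) (p 2) (w 0) (w 1) (w 2) := by
  unfold Dm Dt
  rw [Fin.sum_univ_three]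

theorem Dt_pos {p w : V} (hp : InSimplex p) (hw : InSimplex w) :
    0 < Dt (p 0) (p 1) (p 2) (w 0) (w 1) (w 2) := by
  have := hp.1 0; have := hp.1 1; have := hp.1 2
  have := hw.1 0; have := hw.1 1; have := hw.1 2
  unfold Dt
  positivity

theorem Mt_pos {p w : V} (hp : InSimplex p) (hw : InSimplex w) :
    0 < Mt (p 0) (p 1) (p 2) (w 0) (w 1) (w 2) := by
  have := hp.1 0; have := hp.1 1; have := hp.1 2
  have := hw.1 0; have := hw.1 1; have := hw.1 2
  unfold Mt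
  positivity

theorem merge_apply (p w : V) (i : Fin 3) :
    merge p w i = p i * w i / (p 0 * w 0 + p 1 * w 1 + p 2 * w 2) := by
  unfold merge
  rw [Fin.sum_univ_three]

theorem one_sub_aF_merge {p w : V} (hp : InSimplex p) (hw : InSimplex w) :
    1 - aF (merge p w) = Mt (p 0) (p 1) (p 2) (w 0) (w 1) (w 2)
      / (Dt (p 0) (p 1) (p 2) (w 0) (w 1) (w 2)) ^ 2 := by
  have hD := Dt_pos hp hw
  unfold Dt at hD ⊢
  have hS : 0 < p 0 * w 0 + p 1 * w 1 + p 2 * w 2 := by linarith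
  unfold aF Mt
  simp only [merge_apply]
  field_simp
  ring

theorem epsF_merge {p w : V} (hp : InSimplex p) (hw : InSimplex w) :
    epsF (merge p w) = epsF p * epsF w / (Dt (p 0) (p 1) (p 2) (w 0) (w 1) (w 2)) ^ 3 := by
  have hD := Dt_pos hp hw
  unfold Dt at hD ⊢
  have hS : 0 < p 0 * w 0 + p 1 * w 1 + p 2 * w 2 := by linarith
  unfold epsF
  simp only [merge_apply]
  field_simp
  ring

theorem merge_sum3 {p w : V} (hp : InSimplex p) (hw : InSimplex w) :
    merge p w 0 + merge p w 1 + merge p w 2 = 1 := by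
  have hD := Dt_pos hp hw
  unfold Dt at hD
  have hS : 0 < p 0 * w 0 + p 1 * w 1 + p 2 * w 2 := by linarith
  simp only [merge_apply]
  field_simp

theorem oN_eq {r : V} (hs : r 0 + r 1 + r 2 = 1) :
    oN r = (epsF r + (1 - aF r) - 2 * (1 - aF r) ^ 2) / (2 * (1 - aF r)) := by
  have h := eps_identity hs
  unfold oN
  rw [h]
  rcases eq_or_ne (1 - aF r) 0 with h0 | h0
  · rw [h0]; simp
  · field_simp
    ring

theorem term_a {p w : V} (hp : InSimplex p) (hw : InSimplex w) :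
    Dm p w * aF (merge p w) = Dt (p 0) (p 1) (p 2) (w 0) (w 1) (w 2)
      - Mt (p 0) (p 1) (p 2) (w 0) (w 1) (w 2) / Dt (p 0) (p 1) (p 2) (w 0) (w 1) (w 2) := by
  have hD := Dt_pos hp hw
  have h1 := one_sub_aF_merge hp hw
  have h2 : aF (merge p w) = 1 - Mt (p 0) (p 1) (p 2) (w 0) (w 1) (w 2)
      / (Dt (p 0) (p 1) (p 2) (w 0) (w 1) (w 2)) ^ 2 := by linarith
  rw [Dm_eq, h2]
  field_simp

theorem term_o {p w : V} (hp : InSimplex p) (hw : InSimplex w) :
    Dm p w * oN (merge p w) = (epsF p * epsF w / Mt (p 0) (p 1) (p 2) (w 0) (w 1) (w 2)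
      + Dt (p 0) (p 1) (p 2) (w 0) (w 1) (w 2)
      - 2 * Mt (p 0) (p 1) (p 2) (w 0) (w 1) (w 2) / Dt (p 0) (p 1) (p 2) (w 0) (w 1) (w 2)) / 2 := by
  have hD := Dt_pos hp hw
  have hM := Mt_pos hp hw
  rw [Dm_eq, oN_eq (merge_sum3 hp hw), one_sub_aF_merge hp hw, epsF_merge hp hw]
  field_simp

theorem U_bound {E e E' e' : ℝ} (hE : 0 < E) (hE' : 0 < E') (hQ : 0 < Q2F E e E' e')
    (hJ : 0 ≤ J1i E e E' e') :
    1 - 2 * NnF E e E' e' / Q2F E e E' e' ≤
      (1 - E) + (1 - E')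
        - (((e - 1 + 3 * (1 - E)) / 2 - (1 - E) ^ 2) / E) * (2 * (1 - E') * E')
        - (((e' - 1 + 3 * (1 - E')) / 2 - (1 - E') ^ 2) / E') * (2 * (1 - E) * E)
        - 1 / 2 * ((1 - E) * E * ((1 - E') * E')) := by
  set X := (2 * E * E' * (1 - (1 - E) - (1 - E'))
      + 2 * (1 - E') * E' ^ 2 * ((e - 1 + 3 * (1 - E)) - 2 * (1 - E) ^ 2)
      + 2 * (1 - E) * E ^ 2 * ((e' - 1 + 3 * (1 - E')) - 2 * (1 - E') ^ 2)
      + (1 - E) * (1 - E') * E ^ 2 * E' ^ 2) with hX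
  have h1 : X * Q2F E e E' e' ≤ 4 * E * E' * NnF E e E' e' := by
    unfold J1i at hJ
    linarith
  have h2 : (1 - E) + (1 - E')
        - (((e - 1 + 3 * (1 - E)) / 2 - (1 - E) ^ 2) / E) * (2 * (1 - E') * E')
        - (((e' - 1 + 3 * (1 - E')) / 2 - (1 - E') ^ 2) / E') * (2 * (1 - E) * E)
        - 1 / 2 * ((1 - E) * E * ((1 - E') * E')) = 1 - X / (2 * E * E') := by
    rw [hX]
    field_simp
    ring
  rw [h2]
  have h3 : X / (2 * E * E') ≤ 2 * NnF E e E' e' / Q2F E e E' e' := by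
    rw [div_le_div_iff₀ (by positivity) hQ]
    nlinarith
  linarith

theorem L_bound {E e E' e' : ℝ} (hE : 0 < E) (hE' : 0 < E') (hP : 0 < PiF E e E' e')
    (hJ : 0 ≤ J2i E e E' e') :
    ((e + E - 2 * E ^ 2) / (2 * E)) * (e' / E') + ((e' + E' - 2 * E' ^ 2) / (2 * E')) * (e / E) ≤
      (e * e' / (E * E') + 1 - NnF E e E' e' * Q2F E e E' e' / PiF E e E' e') / 2 := by
  have h1 : NnF E e E' e' * Q2F E e E' e' * E * E' ≤
      (E * E' + e * e' - ((e - 2 * E ^ 2 + E) * e' + (e' - 2 * E' ^ 2 + E') * e))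
        * PiF E e E' e' := by
    unfold J2i at hJ
    linarith
  have h2 : NnF E e E' e' * Q2F E e E' e' / PiF E e E' e' ≤
      (E * E' + e * e' - ((e - 2 * E ^ 2 + E) * e' + (e' - 2 * E' ^ 2 + E') * e)) / (E * E') := by
    rw [div_le_div_iff₀ hP (by positivity)]
    nlinarith
  have h3 : ((e + E - 2 * E ^ 2) / (2 * E)) * (e' / E')
      + ((e' + E' - 2 * E' ^ 2) / (2 * E')) * (e / E)
      = (e * e' / (E * E') + 1
        - (E * E' + e * e' - ((e - 2 * E ^ 2 + E) * e' + (e' - 2 * E' ^ 2 + E') * e)) / (E * E')) / 2 := by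
    field_simp
    ring
  rw [h3]
  linarith

theorem Et_eq (p : V) : Et (p 0) (p 1) (p 2) = 1 - aF p := by
  unfold Et aF; ring

theorem et_eq (p : V) : et (p 0) (p 1) (p 2) = epsF p := by
  unfold et epsF; ring

theorem one_sub_aF_pos {p : V} (hp : InSimplex p) : 0 < 1 - aF p := by
  have := hp.1 0; have := hp.1 1; have := hp.1 2
  rw [← Et_eq]
  unfold Et
  positivity

theorem p01 : (swap 0 1 : Perm (Fin 3)) 0 = 1 ∧ (swap 0 1 : Perm (Fin 3)) 1 = 0 ∧
    (swap 0 1 : Perm (Fin 3)) 2 = 2 := by decide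

theorem p02 : (swap 0 2 : Perm (Fin 3)) 0 = 2 ∧ (swap 0 2 : Perm (Fin 3)) 1 = 1 ∧
    (swap 0 2 : Perm (Fin 3)) 2 = 0 := by decide

theorem p12 : (swap 1 2 : Perm (Fin 3)) 0 = 0 ∧ (swap 1 2 : Perm (Fin 3)) 1 = 2 ∧
    (swap 1 2 : Perm (Fin 3)) 2 = 1 := by decide

theorem pc1 : (swap 0 1 * swap 1 2 : Perm (Fin 3)) 0 = 1 ∧ (swap 0 1 * swap 1 2 : Perm (Fin 3)) 1 = 2 ∧
    (swap 0 1 * swap 1 2 : Perm (Fin 3)) 2 = 0 := by decide

theorem pc2 : (swap 1 2 * swap 0 1 : Perm (Fin 3)) 0 = 2 ∧ (swap 1 2 * swap 0 1 : Perm (Fin 3)) 1 = 0 ∧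
    (swap 1 2 * swap 0 1 : Perm (Fin 3)) 2 = 1 := by decide

theorem epsF_comp (q : V) (s : Perm (Fin 3)) : epsF (q ∘ s) = epsF q := by
  have h : ∏ i, (q ∘ s) i = ∏ i, q i := Equiv.prod_comp s q
  rw [Fin.prod_univ_three, Fin.prod_univ_three] at h
  unfold epsF
  linear_combination 27 * h

theorem J1g_of_inv
    (H : ∀ p q : V, InSimplex p → InSimplex q →
      0 ≤ J1i (1 - aF p) (epsF p) (1 - aF q) (epsF q)) : J1g oN gN (1 / 2) := by
  intro p q hp hq
  have hE := one_sub_aF_pos hp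
  have hE' := one_sub_aF_pos hq
  have hps := hp.sum3
  have hqs := hq.sum3
  rw [sum_perm3]
  rw [term_a hp (inSimplex_comp hq _), term_a hp (inSimplex_comp hq _),
    term_a hp (inSimplex_comp hq _), term_a hp (inSimplex_comp hq _),
    term_a hp (inSimplex_comp hq _), term_a hp (inSimplex_comp hq _)]
  have d1 := Dt_pos hp (inSimplex_comp hq 1)
  have d2 := Dt_pos hp (inSimplex_comp hq (swap 0 1))
  have d3 := Dt_pos hp (inSimplex_comp hq (swap 0 2))
  have d4 := Dt_pos hp (inSimplex_comp hq (swap 1 2))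
  have d5 := Dt_pos hp (inSimplex_comp hq (swap 0 1 * swap 1 2))
  have d6 := Dt_pos hp (inSimplex_comp hq (swap 1 2 * swap 0 1))
  simp only [Function.comp, p01.1, p01.2.1, p01.2.2, p02.1, p02.2.1, p02.2.2, p12.1, p12.2.1,
    p12.2.2, pc1.1, pc1.2.1, pc1.2.2, pc2.1, pc2.2.1, pc2.2.2, Perm.coe_one, id] at d1 d2 d3 d4 d5 d6 ⊢
  have hNn : 0 ≤ NnF (1 - aF p) (epsF p) (1 - aF q) (epsF q) := by
    have h1 := aF_nonneg hp
    have h2 := aF_nonneg hq
    have h3 := epsF_nonneg hp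
    have h4 := epsF_nonneg hq
    unfold NnF
    have e1 : 1 - (1 - aF q) = aF q := by ring
    have e2 : 1 - (1 - aF p) = aF p := by ring
    rw [e1, e2]
    positivity
  have ide := id_e hps hqs
  have ido := id_o hps hqs
  have idQ := id_Q hps hqs
  have idD := id_D hps hqs
  rw [Et_eq, Et_eq, et_eq, et_eq] at ide ido idQ
  have key := abs_J1 d1 d5 d6 d2 d3 d4 hNn ide ido idQ idD
  have hQ : 0 < Q2F (1 - aF p) (epsF p) (1 - aF q) (epsF q) := by
    rw [← idQ]; positivity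
  have hU := U_bound hE hE' hQ (H p q hp hq)
  have eo : ∀ r : V, r 0 + r 1 + r 2 = 1 →
      oN r = ((epsF r - 1 + 3 * (1 - (1 - aF r))) / 2 - (1 - (1 - aF r)) ^ 2) / (1 - aF r) := by
    intro r hr
    unfold oN
    rw [eps_identity hr]
    congr 1
    ring
  have eg : ∀ r : V, gN r = 2 * (1 - (1 - aF r)) * (1 - aF r) := by
    intro r
    unfold gN
    ring
  rw [eo p hps, eo q hqs, eg p, eg q]
  have e3 : aF p + aF q = (1 - (1 - aF p)) + (1 - (1 - aF q)) := by ring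
  have e4 : aF p * (1 - aF p) * (aF q * (1 - aF q)) =
      (1 - (1 - aF p)) * (1 - aF p) * ((1 - (1 - aF q)) * (1 - aF q)) := by ring
  rw [e3, e4]
  linarith

theorem J2g_of_inv
    (H : ∀ p q : V, InSimplex p → InSimplex q →
      0 ≤ J2i (1 - aF p) (epsF p) (1 - aF q) (epsF q)) : J2g oN chiF := by
  intro p q hp hq
  have hE := one_sub_aF_pos hp
  have hE' := one_sub_aF_pos hq
  have hps := hp.sum3
  have hqs := hq.sum3
  rw [sum_perm3]
  rw [term_o hp (inSimplex_comp hq _), term_o hp (inSimplex_comp hq _),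
    term_o hp (inSimplex_comp hq _), term_o hp (inSimplex_comp hq _),
    term_o hp (inSimplex_comp hq _), term_o hp (inSimplex_comp hq _)]
  have d1 := Dt_pos hp (inSimplex_comp hq 1)
  have d2 := Dt_pos hp (inSimplex_comp hq (swap 0 1))
  have d3 := Dt_pos hp (inSimplex_comp hq (swap 0 2))
  have d4 := Dt_pos hp (inSimplex_comp hq (swap 1 2))
  have d5 := Dt_pos hp (inSimplex_comp hq (swap 0 1 * swap 1 2))
  have d6 := Dt_pos hp (inSimplex_comp hq (swap 1 2 * swap 0 1))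
  have m1 := Mt_pos hp (inSimplex_comp hq 1)
  have m2 := Mt_pos hp (inSimplex_comp hq (swap 0 1))
  have m3 := Mt_pos hp (inSimplex_comp hq (swap 0 2))
  have m4 := Mt_pos hp (inSimplex_comp hq (swap 1 2))
  have m5 := Mt_pos hp (inSimplex_comp hq (swap 0 1 * swap 1 2))
  have m6 := Mt_pos hp (inSimplex_comp hq (swap 1 2 * swap 0 1))
  simp only [epsF_comp]
  simp only [Function.comp, p01.1, p01.2.1, p01.2.2, p02.1, p02.2.1, p02.2.2, p12.1, p12.2.1,
    p12.2.2, pc1.1, pc1.2.1, pc1.2.2, pc2.1, pc2.2.1, pc2.2.2, Perm.coe_one, id]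
    at d1 d2 d3 d4 d5 d6 m1 m2 m3 m4 m5 m6 ⊢
  have ide := id_e hps hqs
  have ido := id_o hps hqs
  have idQ := id_Q hps hqs
  have idP := id_P hps hqs
  have idD := id_D hps hqs
  have idM := id_M (p0 := p 0) (p1 := p 1) (p2 := p 2) (q0 := q 0) (q1 := q 1) (q2 := q 2)
  rw [Et_eq, Et_eq, et_eq, et_eq] at ide ido idQ idP
  rw [Et_eq, Et_eq] at idM
  have hee : 0 ≤ epsF p * epsF q := mul_nonneg (epsF_nonneg hp) (epsF_nonneg hq)
  have key := abs_J2 d1 d5 d6 d2 d3 d4 m1 m5 m6 m2 m3 m4 (mul_pos hE hE') hee ide ido idQ idP idD idM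
  have hP : 0 < PiF (1 - aF p) (epsF p) (1 - aF q) (epsF q) := by
    rw [← idP]; positivity
  have hL := L_bound hE hE' hP (H p q hp hq)
  rw [oN_eq hps, oN_eq hqs]
  unfold chiF
  linarith

open Filter Topology in
/-- Everything reduced to the two polynomial inequalities in the invariants. -/
theorem nonreconstruction_of_inv
    (H1 : ∀ p q : V, InSimplex p → InSimplex q →
      0 ≤ J1i (1 - aF p) (epsF p) (1 - aF q) (epsF q))
    (H2 : ∀ p q : V, InSimplex p → InSimplex q →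
      0 ≤ J2i (1 - aF p) (epsF p) (1 - aF q) (epsF q))
    (d : ℕ) (hd : 2 ≤ d) (lam : ℝ) (h0 : 0 ≤ lam) (hKS : d * lam ^ 2 ≤ 1) :
    Tendsto (aSeq d lam) atTop (𝓝 0) :=
  nonreconstruction_of_coneData
    (coneData_new (by norm_num) (J1g_of_inv H1) (J2g_of_inv H2)) d hd lam h0 hKS

end Vale.Agent.P154
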