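import Vale.Agent.P154.Alg
import Vale.Agent.P154.CertPoly

namespace Vale.Agent.P154

open Refl

noncomputable def hT (i E e : ℝ) : ℝ := e - i ^ 3 + 3 * ((i ^ 2 - E) * i)

noncomputable def hNn (i E e i' E' e' : ℝ) : ℝ :=
  E * E * (E' * E') + ((i' ^ 2 - E') * E' * (e * i) + (i ^ 2 - E) * E * (e' * i'))

noncomputable def hab (i E i' E' : ℝ) : ℝ := (i ^ 2 - E) * (i' ^ 2 - E') * (i * i')

noncomputable def hQ2 (i E e i' E' e' : ℝ) : ℝ :=
  2 * (i ^ 3 * i' ^ 3) - 6 * hab i E i' E' + hT i E e * hT i' E' e'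

noncomputable def hU2 (i E e i' E' e' : ℝ) : ℝ :=
  2 * (E * E') * (i ^ 4 * i' ^ 4 - ((i ^ 2 - E) * (i ^ 2 * i' ^ 4) + (i' ^ 2 - E') * (i ^ 4 * i' ^ 2)))
  + (2 * ((i' ^ 2 - E') * (E' * E')) * ((hT i E e * i - 2 * ((i ^ 2 - E) * (i ^ 2 - E))) * i ^ 2)
  + (2 * ((i ^ 2 - E) * (E * E)) * ((hT i' E' e' * i' - 2 * ((i' ^ 2 - E') * (i' ^ 2 - E'))) * i' ^ 2)
  + (i ^ 2 - E) * (i' ^ 2 - E') * (E * E * (E' * E'))))

noncomputable def J1hom (i E e i' E' e' : ℝ) : ℝ :=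
  4 * (E * E') * (hNn i E e i' E' e' * (i ^ 3 * i' ^ 3)) - hU2 i E e i' E' e' * hQ2 i E e i' E' e'

noncomputable def hm3 (i E i' E' : ℝ) : ℝ := i ^ 3 * i' ^ 3 - 3 * hab i E i' E'

noncomputable def hPi (i E e i' E' e' : ℝ) : ℝ :=
  hm3 i E i' E' * hm3 i E i' E' - 4 * ((i ^ 2 - E) ^ 3 * (i' ^ 2 - E') ^ 3)
  + (hm3 i E i' E' * (hT i E e * hT i' E' e')
  + ((i ^ 2 - E) ^ 3 * (hT i' E' e' * hT i' E' e') + (i' ^ 2 - E') ^ 3 * (hT i E e * hT i E e)))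

noncomputable def hfac (i E e i' E' e' : ℝ) : ℝ :=
  E * E' * (i * i * (i' * i')) + e * e' * (i * i')
  - ((e * i - 2 * (E * E) + E * (i * i)) * (e' * i') + (e' * i' - 2 * (E' * E') + E' * (i' * i')) * (e * i))

noncomputable def J2hom (i E e i' E' e' : ℝ) : ℝ :=
  hfac i E e i' E' e' * hPi i E e i' E' e'
  - hNn i E e i' E' e' * hQ2 i E e i' E' e' * (E * E' * (i * i'))

theorem J1hom_scale (k l i E e i' E' e' : ℝ) :
    J1hom (k * i) (k ^ 2 * E) (k ^ 3 * e) (l * i') (l ^ 2 * E') (l ^ 3 * e')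
      = k ^ 9 * l ^ 9 * J1hom i E e i' E' e' := by
  unfold J1hom hU2 hQ2 hNn hab hT
  ring

theorem J2hom_scale (k l i E e i' E' e' : ℝ) :
    J2hom (k * i) (k ^ 2 * E) (k ^ 3 * e) (l * i') (l ^ 2 * E') (l ^ 3 * e')
      = k ^ 10 * l ^ 10 * J2hom i E e i' E' e' := by
  unfold J2hom hfac hPi hm3 hQ2 hNn hab hT
  ring

noncomputable def rI (x y : ℝ) : ℝ := 3 + (2 * x + y)
noncomputable def rE (x y : ℝ) : ℝ := 3 * ((1 + (x + y)) * (1 + x) + ((1 + x) + (1 + (x + y))))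
noncomputable def re (x y : ℝ) : ℝ := 27 * ((1 + (x + y)) * (1 + x))

section link
variable {x y z w : ℝ}

theorem ev_io2 : ev2 x y io2 = rI x y := by
  simp only [io2, rI, ev2, ev1, evL]; push_cast; ring
theorem ev_E2 : ev2 x y E2 = rE x y := by
  simp only [E2, rE, ev2, ev1, evL]; push_cast; ring
theorem ev_e2 : ev2 x y e2 = re x y := by
  simp only [e2, re, ev2, ev1, evL]; push_cast; ring
theorem ev_mono2 (k i j : ℕ) : ev2 x y (mono2 k i j) = rI x y ^ k * (rE x y ^ i * re x y ^ j) := by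
  simp only [mono2, ev2_mul, ev2_pow, ev_io2, ev_E2, ev_e2]

theorem ev_J1p : ev4 x y z w J1p = J1hom (rI x y) (rE x y) (re x y) (rI z w) (rE z w) (re z w) := by
  simp only [J1p, ev4_bil4, monos9, List.map_cons, List.map_nil, ev_mono2]
  generalize rI x y = i
  generalize rE x y = E
  generalize re x y = e
  generalize rI z w = i'
  generalize rE z w = E'
  generalize re z w = e'
  simp only [CJ1, bilR, linR]
  unfold J1hom hU2 hQ2 hNn hab hT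
  push_cast
  ring

theorem ev_J2p : ev4 x y z w J2p = J2hom (rI x y) (rE x y) (re x y) (rI z w) (rE z w) (re z w) := by
  simp only [J2p, ev4_bil4, monos10, List.map_cons, List.map_nil, ev_mono2]
  generalize rI x y = i
  generalize rE x y = E
  generalize re x y = e
  generalize rI z w = i'
  generalize rE z w = E'
  generalize re z w = e'
  simp only [CJ2, bilR, linR]
  unfold J2hom hfac hPi hm3 hQ2 hNn hab hT
  push_cast
  ring

end link

/-- four times the `J1` polynomial in the invariants `E = 1 - a`, `e = eps`. -/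
noncomputable def J1inv (E e E' e' : ℝ) : ℝ :=
  4 * E * E' * (E ^ 2 * E' ^ 2 + (1 - E') * E' * e + (1 - E) * E * e')
  - (2 * E * E' * (1 - (1 - E) - (1 - E'))
      + 2 * (1 - E') * E' ^ 2 * ((e - 1 + 3 * (1 - E)) - 2 * (1 - E) ^ 2)
      + 2 * (1 - E) * E ^ 2 * ((e' - 1 + 3 * (1 - E')) - 2 * (1 - E') ^ 2)
      + (1 - E) * (1 - E') * E ^ 2 * E' ^ 2)
    * (2 - 6 * (1 - E) * (1 - E') + (e - 1 + 3 * (1 - E)) * (e' - 1 + 3 * (1 - E')))

noncomputable def J2inv (E e E' e' : ℝ) : ℝ :=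
  (E * E' + e * e' - ((e - 2 * E ^ 2 + E) * e' + (e' - 2 * E' ^ 2 + E') * e))
    * ((1 - 3 * (1 - E) * (1 - E')) ^ 2 - 4 * (1 - E) ^ 3 * (1 - E') ^ 3
      + (1 - 3 * (1 - E) * (1 - E')) * ((e - 1 + 3 * (1 - E)) * (e' - 1 + 3 * (1 - E')))
      + (1 - E) ^ 3 * (e' - 1 + 3 * (1 - E')) ^ 2 + (1 - E') ^ 3 * (e - 1 + 3 * (1 - E)) ^ 2)
  - (E ^ 2 * E' ^ 2 + (1 - E') * E' * e + (1 - E) * E * e')
    * (2 - 6 * (1 - E) * (1 - E') + (e - 1 + 3 * (1 - E)) * (e' - 1 + 3 * (1 - E'))) * E * E'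

theorem J1inv_eq (E e E' e' : ℝ) : J1inv E e E' e' = J1hom 1 E e 1 E' e' := by
  unfold J1inv J1hom hU2 hQ2 hNn hab hT
  ring

theorem J2inv_eq (E e E' e' : ℝ) : J2inv E e E' e' = J2hom 1 E e 1 E' e' := by
  unfold J2inv J2hom hfac hPi hm3 hQ2 hNn hab hT
  ring

theorem exists_sorted (p : V) (hp : InSimplex p) :
    ∃ s1 s2 s3 : ℝ, 0 < s1 ∧ 0 ≤ s2 ∧ 0 ≤ s3 ∧ 3 * s1 + 2 * s2 + s3 = 1 ∧
      1 - aF p = 3 * ((s1 + s2 + s3) * (s1 + s2) + (s1 + s2) * s1 + (s1 + s2 + s3) * s1) ∧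
      epsF p = 27 * ((s1 + s2 + s3) * (s1 + s2) * s1) := by
  obtain ⟨hpos, hsum⟩ := hp
  rw [Fin.sum_univ_three] at hsum
  have h0 := hpos 0
  have h1 := hpos 1
  have h2 := hpos 2
  unfold aF epsF
  rcases le_total (p 0) (p 1) with h01 | h01 <;> rcases le_total (p 1) (p 2) with h12 | h12 <;>
    rcases le_total (p 0) (p 2) with h02 | h02
  · exact ⟨p 0, p 1 - p 0, p 2 - p 1, h0, by linarith, by linarith, by linarith, by ring, by ring⟩
  · exact ⟨p 0, p 1 - p 0, p 2 - p 1, h0, by linarith, by linarith, by linarith, by ring, by ring⟩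
  · exact ⟨p 0, p 2 - p 0, p 1 - p 2, h0, by linarith, by linarith, by linarith, by ring, by ring⟩
  · exact ⟨p 2, p 0 - p 2, p 1 - p 0, h2, by linarith, by linarith, by linarith, by ring, by ring⟩
  · exact ⟨p 1, p 0 - p 1, p 2 - p 0, h1, by linarith, by linarith, by linarith, by ring, by ring⟩
  · exact ⟨p 1, p 2 - p 1, p 0 - p 2, h1, by linarith, by linarith, by linarith, by ring, by ring⟩
  · exact ⟨p 2, p 1 - p 2, p 0 - p 1, h2, by linarith, by linarith, by linarith, by ring, by ring⟩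
  · exact ⟨p 2, p 1 - p 2, p 0 - p 1, h2, by linarith, by linarith, by linarith, by ring, by ring⟩

theorem sorted_scale {s1 s2 s3 : ℝ} (h1 : 0 < s1) (hs : 3 * s1 + 2 * s2 + s3 = 1) :
    s1 * rI (s2 / s1) (s3 / s1) = 1 ∧
    s1 ^ 2 * rE (s2 / s1) (s3 / s1)
      = 3 * ((s1 + s2 + s3) * (s1 + s2) + (s1 + s2) * s1 + (s1 + s2 + s3) * s1) ∧
    s1 ^ 3 * re (s2 / s1) (s3 / s1) = 27 * ((s1 + s2 + s3) * (s1 + s2) * s1) := by
  have hne : s1 ≠ 0 := ne_of_gt h1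
  refine ⟨?_, ?_, ?_⟩
  · unfold rI; field_simp; linarith
  · unfold rE; field_simp; ring
  · unfold re; field_simp; ring

theorem J1inv_nonneg (p q : V) (hp : InSimplex p) (hq : InSimplex q) :
    0 ≤ J1inv (1 - aF p) (epsF p) (1 - aF q) (epsF q) := by
  obtain ⟨s1, s2, s3, hs1, hs2, hs3, hs, hE, he⟩ := exists_sorted p hp
  obtain ⟨t1, t2, t3, ht1, ht2, ht3, ht, hE', he'⟩ := exists_sorted q hq
  obtain ⟨a1, a2, a3⟩ := sorted_scale hs1 hs
  obtain ⟨b1, b2, b3⟩ := sorted_scale ht1 ht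
  rw [J1inv_eq, hE, he, hE', he', ← a2, ← a3, ← b2, ← b3]
  have key := J1hom_scale s1 t1 (rI (s2 / s1) (s3 / s1)) (rE (s2 / s1) (s3 / s1))
    (re (s2 / s1) (s3 / s1)) (rI (t2 / t1) (t3 / t1)) (rE (t2 / t1) (t3 / t1)) (re (t2 / t1) (t3 / t1))
  rw [a1, b1] at key
  rw [key, ← ev_J1p]
  have hnn := ev4_nonneg (x := s2 / s1) (y := s3 / s1) (z := t2 / t1) (w := t3 / t1)
    (by positivity) (by positivity) (by positivity) (by positivity) J1p J1p_nn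
  positivity

theorem J2inv_nonneg (p q : V) (hp : InSimplex p) (hq : InSimplex q) :
    0 ≤ J2inv (1 - aF p) (epsF p) (1 - aF q) (epsF q) := by
  obtain ⟨s1, s2, s3, hs1, hs2, hs3, hs, hE, he⟩ := exists_sorted p hp
  obtain ⟨t1, t2, t3, ht1, ht2, ht3, ht, hE', he'⟩ := exists_sorted q hq
  obtain ⟨a1, a2, a3⟩ := sorted_scale hs1 hs
  obtain ⟨b1, b2, b3⟩ := sorted_scale ht1 ht
  rw [J2inv_eq, hE, he, hE', he', ← a2, ← a3, ← b2, ← b3]
  have key := J2hom_scale s1 t1 (rI (s2 / s1) (s3 / s1)) (rE (s2 / s1) (s3 / s1))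
    (re (s2 / s1) (s3 / s1)) (rI (t2 / t1) (t3 / t1)) (rE (t2 / t1) (t3 / t1)) (re (t2 / t1) (t3 / t1))
  rw [a1, b1] at key
  rw [key, ← ev_J2p]
  have hnn := ev4_nonneg (x := s2 / s1) (y := s3 / s1) (z := t2 / t1) (w := t3 / t1)
    (by positivity) (by positivity) (by positivity) (by positivity) J2p J2p_nn
  positivity

end Vale.Agent.P154
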