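import Vale.Agent.P154.Bridge
import Vale.Agent.P154.Cert

namespace Vale.Agent.P154

theorem J1i_eq_inv (E e E' e' : ℝ) : J1i E e E' e' = J1inv E e E' e' := by
  unfold J1i J1inv NnF Q2F
  ring

theorem J2i_eq_inv (E e E' e' : ℝ) : J2i E e E' e' = J2inv E e E' e' := by
  unfold J2i J2inv NnF Q2F PiF
  ring

/-- the cone data used for the three-state ferromagnetic channel, with both merging inequalities
proved -/
theorem coneData_final : ConeData oN gN chiF (1 / 2) :=
  coneData_new (by norm_num)
    (J1g_of_inv fun p q hp hq => by rw [J1i_eq_inv]; exact J1inv_nonneg p q hp hq)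
    (J2g_of_inv fun p q hp hq => by rw [J2i_eq_inv]; exact J2inv_nonneg p q hp hq)

end Vale.Agent.P154
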