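import Vale.Agent.P154.GWMain

namespace Vale.Agent.P154

open Finset Filter Topology

theorem chan_nonneg {lam : ℝ} (h0 : 0 ≤ lam) (h1 : lam ≤ 1) (i j : Fin 3) : 0 ≤ chan lam i j := by
  unfold chan
  split_ifs
  · linarith
  · linarith

theorem chan_sum (lam : ℝ) (i : Fin 3) : ∑ j, chan lam i j = 1 := by
  unfold chan
  rw [Finset.sum_add_distrib, ← Finset.mul_sum]
  simp
  ring

theorem leafLawT_nonneg {lam : ℝ} (h0 : 0 ≤ lam) (h1 : lam ≤ 1) :
    ∀ (n : ℕ) (T : Shape n) (i : Fin 3) (c : Cfg n T), 0 ≤ leafLawT lam n T i c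
  | 0, _, i, c => by
    show 0 ≤ (if (show Fin 3 from c) = i then (1 : ℝ) else 0)
    split_ifs <;> norm_num
  | n + 1, ⟨k, t⟩, i, c =>
    Finset.prod_nonneg fun j _ => Finset.sum_nonneg fun s _ =>
      mul_nonneg (chan_nonneg h0 h1 i s) (leafLawT_nonneg h0 h1 n (t j) s (c j))

theorem leafLawT_sum (lam : ℝ) :
    ∀ (n : ℕ) (T : Shape n) (i : Fin 3), ∑ c, leafLawT lam n T i c = 1
  | 0, _, i => by
    show ∑ c : Fin 3, (if c = i then (1 : ℝ) else 0) = 1
    simp
  | n + 1, ⟨k, t⟩, i => by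
    show ∑ c : (j : Fin k) → Cfg n (t j),
      ∏ j : Fin k, ∑ s : Fin 3, chan lam i s * leafLawT lam n (t j) s (c j) = 1
    have h := Finset.prod_univ_sum (fun j : Fin k => (Finset.univ : Finset (Cfg n (t j))))
      (fun j cj => ∑ s : Fin 3, chan lam i s * leafLawT lam n (t j) s cj)
    rw [Fintype.piFinset_univ] at h
    rw [← h]
    refine Finset.prod_eq_one fun j _ => ?_
    rw [Finset.sum_comm]
    simp only [← Finset.mul_sum, leafLawT_sum lam n (t j), mul_one, chan_sum]

theorem margT_nonneg {lam : ℝ} (h0 : 0 ≤ lam) (h1 : lam ≤ 1) (n : ℕ) (T : Shape n)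
    (c : Cfg n T) : 0 ≤ margT lam n T c :=
  Finset.sum_nonneg fun i _ => mul_nonneg (by norm_num) (leafLawT_nonneg h0 h1 n T i c)

theorem margT_sum (lam : ℝ) (n : ℕ) (T : Shape n) : ∑ c, margT lam n T c = 1 := by
  unfold margT
  rw [Finset.sum_comm]
  simp only [← Finset.mul_sum, leafLawT_sum]
  simp

theorem aT_nonneg {lam : ℝ} (h0 : 0 ≤ lam) (h1 : lam ≤ 1) (n : ℕ) (T : Shape n) :
    0 ≤ aT lam n T :=
  Finset.sum_nonneg fun c _ => mul_nonneg (margT_nonneg h0 h1 n T c)
    (mul_nonneg (by norm_num) (Finset.sum_nonneg fun i _ => abs_nonneg _))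

theorem aT_le_one {lam : ℝ} (h0 : 0 ≤ lam) (h1 : lam ≤ 1) (n : ℕ) (T : Shape n) :
    aT lam n T ≤ 1 := by
  rw [← margT_sum lam n T]
  refine Finset.sum_le_sum fun c _ => ?_
  have hm := margT_nonneg h0 h1 n T c
  refine mul_le_of_le_one_right hm ?_
  have hp : ∀ i, 0 ≤ postT lam n T i c := fun i =>
    div_nonneg (mul_nonneg (by norm_num) (leafLawT_nonneg h0 h1 n T i c)) hm
  have hs : ∑ i, postT lam n T i c ≤ 1 := by
    unfold postT
    rw [← Finset.sum_div]
    exact div_self_le_one _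
  have hb : ∑ i : Fin 3, |postT lam n T i c - 1 / 3| ≤ ∑ i : Fin 3, (postT lam n T i c + 1 / 3) :=
    Finset.sum_le_sum fun i _ => by
      rw [abs_le]
      constructor <;> linarith [hp i]
  rw [Finset.sum_add_distrib] at hb
  simp only [Finset.sum_const, Finset.card_univ, Fintype.card_fin, nsmul_eq_mul] at hb
  norm_num at hb
  linarith

/-- indicator that the tree reaches depth `n` -/
noncomputable def surv : (n : ℕ) → Shape n → ℝ
  | 0, _ => 1
  | n + 1, ⟨k, t⟩ => 1 - ∏ j : Fin k, (1 - surv n (t j))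

theorem surv_zero_or_one : ∀ (n : ℕ) (T : Shape n), surv n T = 0 ∨ surv n T = 1
  | 0, _ => Or.inr rfl
  | n + 1, ⟨k, t⟩ => by
    show 1 - ∏ j : Fin k, (1 - surv n (t j)) = 0 ∨ 1 - ∏ j : Fin k, (1 - surv n (t j)) = 1
    by_cases h : ∃ j, surv n (t j) = 1
    · obtain ⟨j, hj⟩ := h
      right
      rw [Finset.prod_eq_zero (Finset.mem_univ j) (by rw [hj]; ring)]
      ring
    · left
      have : ∀ j, surv n (t j) = 0 := fun j =>
        (surv_zero_or_one n (t j)).resolve_right fun hj => h ⟨j, hj⟩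
      simp [this]

theorem surv_nonneg (n : ℕ) (T : Shape n) : 0 ≤ surv n T := by
  rcases surv_zero_or_one n T with h | h <;> rw [h] <;> norm_num

theorem surv_le_one (n : ℕ) (T : Shape n) : surv n T ≤ 1 := by
  rcases surv_zero_or_one n T with h | h <;> rw [h] <;> norm_num

theorem one_sub_sum_le_prod {ι : Type} (s : Finset ι) (f : ι → ℝ) (h0 : ∀ i, 0 ≤ f i)
    (h1 : ∀ i, f i ≤ 1) : 1 - ∑ i ∈ s, f i ≤ ∏ i ∈ s, (1 - f i) := by
  classical
  induction s using Finset.induction_on with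
  | empty => simp
  | insert a s ha ih =>
    rw [Finset.sum_insert ha, Finset.prod_insert ha]
    have hp : ∏ i ∈ s, (1 - f i) ≤ 1 :=
      Finset.prod_le_one (fun i _ => by linarith [h1 i]) (fun i _ => by linarith [h0 i])
    nlinarith [h0 a, h1 a]

theorem surv_succ_le (n k : ℕ) (t : Fin k → Shape n) :
    surv (n + 1) ⟨k, t⟩ ≤ 1 * ∑ j, surv n (t j)
      - 1 * (if k = 2 then ∏ j, surv n (t j) else 0) := by
  show 1 - ∏ j : Fin k, (1 - surv n (t j)) ≤ _
  split_ifs with hk
  · subst hk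
    rw [Fin.prod_univ_two, Fin.prod_univ_two, Fin.sum_univ_two]
    exact le_of_eq (by ring)
  · have := one_sub_sum_le_prod Finset.univ (fun j => surv n (t j)) (fun j => surv_nonneg n _)
      (fun j => surv_le_one n _)
    linarith

theorem leafLawT_const (lam : ℝ) : ∀ (n : ℕ) (T : Shape n), surv n T = 0 →
    ∀ (i i' : Fin 3) (c : Cfg n T), leafLawT lam n T i c = leafLawT lam n T i' c
  | 0, _, h, _, _, _ => absurd h one_ne_zero
  | n + 1, ⟨k, t⟩, h, i, i', c => by
    have hall : ∀ j, surv n (t j) = 0 := by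
      intro j
      refine (surv_zero_or_one n (t j)).resolve_right fun hj => ?_
      have h' : 1 - ∏ j : Fin k, (1 - surv n (t j)) = 0 := h
      rw [Finset.prod_eq_zero (Finset.mem_univ j) (by rw [hj]; ring)] at h'
      norm_num at h'
    show ∏ j : Fin k, ∑ s : Fin 3, chan lam i s * leafLawT lam n (t j) s (c j) =
      ∏ j : Fin k, ∑ s : Fin 3, chan lam i' s * leafLawT lam n (t j) s (c j)
    refine Finset.prod_congr rfl fun j _ => ?_
    have e : ∀ s, leafLawT lam n (t j) s (c j) = leafLawT lam n (t j) 0 (c j) := fun s =>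
      leafLawT_const lam n (t j) (hall j) s 0 (c j)
    simp only [e, ← Finset.sum_mul, chan_sum]

theorem aT_eq_zero (lam : ℝ) (n : ℕ) (T : Shape n) (h : surv n T = 0) : aT lam n T = 0 := by
  refine Finset.sum_eq_zero fun c _ => ?_
  have e : ∀ i, leafLawT lam n T i c = leafLawT lam n T 0 c := fun i =>
    leafLawT_const lam n T h i 0 c
  have hm : margT lam n T c = leafLawT lam n T 0 c := by
    unfold margT
    simp only [e]
    simp
  rcases eq_or_ne (leafLawT lam n T 0 c) 0 with hz | hz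
  · rw [hm, hz, zero_mul]
  · have hp : ∀ i, postT lam n T i c = 1 / 3 := by
      intro i
      unfold postT
      rw [hm, e i]
      field_simp
    simp [hp]

theorem aT_le_surv {lam : ℝ} (h0 : 0 ≤ lam) (h1 : lam ≤ 1) (n : ℕ) (T : Shape n) :
    aT lam n T ≤ surv n T := by
  rcases surv_zero_or_one n T with h | h
  · rw [h, aT_eq_zero lam n T h]
  · rw [h]
    exact aT_le_one h0 h1 n T

/-- extinction: for `d ≤ 1` nothing can be reconstructed, whatever the channel -/
theorem gw_nonreconstruction_ext {d lam : ℝ} (hd : 0 < d) (hd1 : d ≤ 1) (h0 : 0 ≤ lam)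
    (h1 : lam ≤ 1) :
    (∀ n, Summable fun T => gw d n T * aT lam n T) ∧ Tendsto (aGW d lam) atTop (𝓝 0) := by
  refine ⟨fun n => summable_gw_mul hd.le (aT_nonneg h0 h1 n) (aT_le_one h0 h1 n), ?_⟩
  have hs : Tendsto (fun n => mGW d n (surv n)) atTop (𝓝 0) :=
    mGW_tendsto hd one_pos surv_nonneg surv_le_one surv_succ_le (by linarith)
  refine squeeze_zero (fun n => mGW_nonneg hd.le (aT_nonneg h0 h1 n)) (fun n => ?_) hs
  exact mGW_mono hd.le (aT_nonneg h0 h1 n) (aT_le_surv h0 h1 n) (surv_le_one n)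

variable {o g hh : V → ℝ} {c : ℝ}

/-- nonreconstruction on the Poisson Galton-Watson tree, all admissible ferromagnetic `lam` -/
theorem gw_nonreconstruction (D : ConeData o g hh c) {d lam : ℝ} (hd : 0 < d) (h0 : 0 ≤ lam)
    (h1 : lam ≤ 1) (hKS : d * lam ^ 2 ≤ 1) :
    (∀ n, Summable fun T => gw d n T * aT lam n T) ∧ Tendsto (aGW d lam) atTop (𝓝 0) := by
  rcases eq_or_lt_of_le h1 with h | h
  · subst h
    exact gw_nonreconstruction_ext hd (by linarith) h0 le_rfl
  · exact gw_nonreconstruction_lt D hd h0 h hKS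

end Vale.Agent.P154
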