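import Mathlib

namespace Vale.Agent.P154

/-- invariants: `E = 1 - a = 3 e2`, `e = eps = 27 e3`; primes for the second vector -/
noncomputable def NnF (E e E' e' : ℝ) : ℝ := E ^ 2 * E' ^ 2 + (1 - E') * E' * e + (1 - E) * E * e'

noncomputable def Q2F (E e E' e' : ℝ) : ℝ :=
  2 - 6 * (1 - E) * (1 - E') + (e - 1 + 3 * (1 - E)) * (e' - 1 + 3 * (1 - E'))

noncomputable def PiF (E e E' e' : ℝ) : ℝ :=
  (1 - 3 * (1 - E) * (1 - E')) ^ 2 - 4 * (1 - E) ^ 3 * (1 - E') ^ 3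
    + (1 - 3 * (1 - E) * (1 - E')) * (e - 1 + 3 * (1 - E)) * (e' - 1 + 3 * (1 - E'))
    + (1 - E) ^ 3 * (e' - 1 + 3 * (1 - E')) ^ 2 + (1 - E') ^ 3 * (e - 1 + 3 * (1 - E)) ^ 2

noncomputable def J1i (E e E' e' : ℝ) : ℝ :=
  4 * E * E' * NnF E e E' e'
    - (2 * E * E' * (1 - (1 - E) - (1 - E'))
      + 2 * (1 - E') * E' ^ 2 * ((e - 1 + 3 * (1 - E)) - 2 * (1 - E) ^ 2)
      + 2 * (1 - E) * E ^ 2 * ((e' - 1 + 3 * (1 - E')) - 2 * (1 - E') ^ 2)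
      + (1 - E) * (1 - E') * E ^ 2 * E' ^ 2) * Q2F E e E' e'

noncomputable def J2i (E e E' e' : ℝ) : ℝ :=
  (E * E' + e * e' - ((e - 2 * E ^ 2 + E) * e' + (e' - 2 * E' ^ 2 + E') * e)) * PiF E e E' e'
    - NnF E e E' e' * Q2F E e E' e' * E * E'

end Vale.Agent.P154
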