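import Mathlib

namespace Vale.Agent.P154

/-- Leaf configurations of the rooted `d`-ary tree of depth `n` with spins in `Fin 3`:
a single spin at depth `0`, and one configuration per child subtree at depth `n + 1`. -/
def Config (d : ℕ) : ℕ → Type
  | 0 => Fin 3
  | n + 1 => Fin d → Config d n

instance Config.instFintype (d : ℕ) : (n : ℕ) → Fintype (Config d n)
  | 0 => inferInstanceAs (Fintype (Fin 3))
  | n + 1 =>
    have := Config.instFintype d n
    inferInstanceAs (Fintype (Fin d → Config d n))

/-- The three-state Potts channel `P_lam(j | i) = lam 1{i=j} + (1 - lam) / 3`. -/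
noncomputable def chan (lam : ℝ) (i j : Fin 3) : ℝ :=
  lam * (if i = j then 1 else 0) + (1 - lam) / 3

/-- `leafLaw d lam n i c`: probability that the spins at depth `n` equal `c`, given root spin `i`.
Each child independently receives spin `j` with probability `chan lam i j` and then broadcasts. -/
noncomputable def leafLaw (d : ℕ) (lam : ℝ) : (n : ℕ) → Fin 3 → Config d n → ℝ
  | 0, i, c => if (show Fin 3 from c) = i then 1 else 0
  | n + 1, i, c => ∏ k : Fin d, ∑ j : Fin 3, chan lam i j * leafLaw d lam n j (c k)

/-- Probability of the leaf configuration `c` when the root spin is uniform. -/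
noncomputable def marg (d : ℕ) (lam : ℝ) (n : ℕ) (c : Config d n) : ℝ :=
  ∑ i : Fin 3, (1 / 3) * leafLaw d lam n i c

/-- Posterior probability of root spin `i` given the leaf configuration `c` (Bayes). -/
noncomputable def post (d : ℕ) (lam : ℝ) (n : ℕ) (i : Fin 3) (c : Config d n) : ℝ :=
  (1 / 3) * leafLaw d lam n i c / marg d lam n c

/-- `a_n = E [ (1/2) sum_i | Pr(root = i | leaves) - 1/3 | ]`. -/
noncomputable def aSeq (d : ℕ) (lam : ℝ) (n : ℕ) : ℝ :=
  ∑ c : Config d n, marg d lam n c * ((1 / 2) * ∑ i : Fin 3, |post d lam n i c - 1 / 3|)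

end Vale.Agent.P154
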