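import Vale.Agent.P154.Pointwise

namespace Vale.Agent.P154

open Finset

def Zs (u : V) : ℝ := ∑ i, u i

noncomputable def nrm (u : V) : V := fun i => u i / Zs u

/-- expectation of `f (posterior)` for a family of likelihood vectors -/
noncomputable def Ex {X : Type} [Fintype X] (l : X → V) (f : V → ℝ) : ℝ :=
  ∑ x, Zs (l x) / 3 * f (nrm (l x))

structure Good {X : Type} [Fintype X] (l : X → V) : Prop where
  pos : ∀ x i, 0 < l x i
  norm : ∀ i, ∑ x, l x i = 1
  symm : ∀ (g : Equiv.Perm (Fin 3)) (H : V → ℝ), ∑ x, H (l x ∘ g) = ∑ x, H (l x)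

theorem Zs_pos {u : V} (h : ∀ i, 0 < u i) : 0 < Zs u :=
  Finset.sum_pos (fun i _ => h i) ⟨0, Finset.mem_univ _⟩

theorem nrm_inSimplex {u : V} (h : ∀ i, 0 < u i) : InSimplex (nrm u) := by
  have hZ := Zs_pos h
  refine ⟨fun i => div_pos (h i) hZ, ?_⟩
  unfold nrm
  rw [← Finset.sum_div]
  exact div_self hZ.ne'

theorem Zs_comp (u : V) (g : Equiv.Perm (Fin 3)) : Zs (u ∘ g) = Zs u := by
  unfold Zs
  exact Equiv.sum_comp g u

theorem nrm_comp (u : V) (g : Equiv.Perm (Fin 3)) : nrm (u ∘ g) = nrm u ∘ g := by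
  funext i
  simp only [nrm, Zs_comp, Function.comp]

variable {X Y : Type} [Fintype X] [Fintype Y]

theorem sum_weights {l : X → V} (h : Good l) : ∑ x, Zs (l x) / 3 = 1 := by
  unfold Zs
  rw [← Finset.sum_div, Finset.sum_comm]
  simp only [h.norm]
  norm_num

theorem weight_pos {l : X → V} (h : Good l) (x : X) : 0 < Zs (l x) / 3 :=
  div_pos (Zs_pos (h.pos x)) (by norm_num)

theorem Ex_nonneg {l : X → V} (h : Good l) {f : V → ℝ} (hf : ∀ p, InSimplex p → 0 ≤ f p) :
    0 ≤ Ex l f :=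
  Finset.sum_nonneg fun x _ => mul_nonneg (weight_pos h x).le (hf _ (nrm_inSimplex (h.pos x)))

theorem Ex_mono {l : X → V} (h : Good l) {f f' : V → ℝ} (hf : ∀ p, InSimplex p → f p ≤ f' p) :
    Ex l f ≤ Ex l f' :=
  Finset.sum_le_sum fun x _ =>
    mul_le_mul_of_nonneg_left (hf _ (nrm_inSimplex (h.pos x))) (weight_pos h x).le

/-- merging two families: pointwise products of likelihood vectors -/
def mfam (l : X → V) (l' : Y → V) : X × Y → V := fun z i => l z.1 i * l' z.2 i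

theorem good_mfam {l : X → V} {l' : Y → V} (h : Good l) (h' : Good l') : Good (mfam l l') where
  pos := fun z i => mul_pos (h.pos _ _) (h'.pos _ _)
  norm := fun i => by
    simp only [mfam]
    rw [Fintype.sum_prod_type]
    simp only []
    rw [← Finset.sum_mul_sum, h.norm, h'.norm, one_mul]
  symm := fun g H => by
    rw [Fintype.sum_prod_type, Fintype.sum_prod_type]
    have e1 : ∀ x, ∑ y, H (mfam l l' (x, y) ∘ g) = ∑ y, H (fun i => (l x ∘ g) i * l' y i) := by
      intro x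
      exact h'.symm g (fun v => H (fun i => (l x ∘ g) i * v i))
    simp only [e1]
    rw [Finset.sum_comm]
    have e2 : ∀ y, ∑ x, H (fun i => (l x ∘ g) i * l' y i) = ∑ x, H (fun i => l x i * l' y i) := by
      intro y
      exact h.symm g (fun u => H (fun i => u i * l' y i))
    simp only [e2]
    rw [Finset.sum_comm]
    rfl

theorem merge_point {u w : V} (hu : ∀ i, 0 < u i) (hw : ∀ i, 0 < w i) (f : V → ℝ) :
    Zs (fun i => u i * w i) / 3 * f (nrm (fun i => u i * w i)) =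
      Zs u / 3 * (Zs w / 3) * (Dm (nrm u) (nrm w) * f (merge (nrm u) (nrm w))) := by
  have hZu := Zs_pos hu
  have hZw := Zs_pos hw
  have hS : 0 < ∑ i, u i * w i := Finset.sum_pos (fun i _ => mul_pos (hu i) (hw i)) ⟨0, mem_univ _⟩
  have e0 : ∑ i, nrm u i * nrm w i = (∑ i, u i * w i) / (Zs u * Zs w) := by
    rw [Finset.sum_div]
    refine Finset.sum_congr rfl fun i _ => ?_
    simp only [nrm]
    field_simp
  have e1 : nrm (fun i => u i * w i) = merge (nrm u) (nrm w) := by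
    funext i
    simp only [merge, e0]
    simp only [nrm, Zs]
    simp only [Zs] at hZu hZw
    field_simp
  have e2 : Zs (fun i => u i * w i) / 3 = Zs u / 3 * (Zs w / 3) * Dm (nrm u) (nrm w) := by
    simp only [Dm, e0]
    simp only [Zs]
    simp only [Zs] at hZu hZw
    field_simp
  rw [e1, e2]
  ring

theorem Ex_mfam {l : X → V} {l' : Y → V} (h : Good l) (h' : Good l') (f : V → ℝ) :
    Ex (mfam l l') f = ∑ x, ∑ y, Zs (l x) / 3 * (Zs (l' y) / 3) *
      ((∑ g : Equiv.Perm (Fin 3), Dm (nrm (l x)) (nrm (l' y) ∘ g) *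
        f (merge (nrm (l x)) (nrm (l' y) ∘ g))) / 6) := by
  unfold Ex
  rw [Fintype.sum_prod_type]
  refine Finset.sum_congr rfl fun x _ => ?_
  have e1 : ∀ g : Equiv.Perm (Fin 3),
      ∑ y, Zs (mfam l l' (x, y)) / 3 * f (nrm (mfam l l' (x, y))) =
      ∑ y, Zs (l x) / 3 * (Zs (l' y) / 3) * (Dm (nrm (l x)) (nrm (l' y) ∘ g) *
        f (merge (nrm (l x)) (nrm (l' y) ∘ g))) := by
    intro g
    have := h'.symm g (fun v => Zs (fun i => l x i * v i) / 3 * f (nrm (fun i => l x i * v i)))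
    refine this.symm.trans ?_
    refine Finset.sum_congr rfl fun y _ => ?_
    have := merge_point (h.pos x) (w := l' y ∘ g) (fun i => h'.pos y (g i)) f
    rw [Zs_comp, nrm_comp] at this
    exact this
  have e2 : (6 : ℝ) * ∑ y, Zs (mfam l l' (x, y)) / 3 * f (nrm (mfam l l' (x, y))) =
      ∑ g : Equiv.Perm (Fin 3), ∑ y, Zs (l x) / 3 * (Zs (l' y) / 3) *
        (Dm (nrm (l x)) (nrm (l' y) ∘ g) * f (merge (nrm (l x)) (nrm (l' y) ∘ g))) := by
    rw [← Finset.sum_congr rfl (fun g _ => e1 g)]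
    simp [Fintype.card_perm]
    norm_num [Nat.factorial]
  rw [Finset.sum_comm] at e2
  have e3 : ∑ y, Zs (l x) / 3 * (Zs (l' y) / 3) *
      ((∑ g : Equiv.Perm (Fin 3), Dm (nrm (l x)) (nrm (l' y) ∘ g) *
        f (merge (nrm (l x)) (nrm (l' y) ∘ g))) / 6) =
      (∑ y, ∑ g : Equiv.Perm (Fin 3), Zs (l x) / 3 * (Zs (l' y) / 3) *
        (Dm (nrm (l x)) (nrm (l' y) ∘ g) * f (merge (nrm (l x)) (nrm (l' y) ∘ g)))) / 6 := by
    rw [Finset.sum_div]
    refine Finset.sum_congr rfl fun y _ => ?_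
    rw [← Finset.mul_sum]
    ring
  rw [e3, ← e2]
  ring

end Vale.Agent.P154
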