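import Vale.Agent.P154.GWDefs

namespace Vale.Agent.P154

open Finset

theorem hasSum_mul_nonneg {A B : Type} {f : A → ℝ} {g : B → ℝ} {a b : ℝ} (hf : HasSum f a)
    (hg : HasSum g b) (f0 : ∀ x, 0 ≤ f x) (g0 : ∀ y, 0 ≤ g y) :
    HasSum (fun z : A × B => f z.1 * g z.2) (a * b) := by
  have hs : Summable (fun z : A × B => f z.1 * g z.2) :=
    Summable.mul_of_nonneg hf.summable hg.summable f0 g0
  exact hf.mul hg hs

theorem hasSum_cmul {A : Type} {f : A → ℝ} {a : ℝ} (hf : HasSum f a) (c : ℝ) :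
    HasSum (fun x => c * f x) (c * a) := hf.mul_left c

theorem hasSum_mulc {A : Type} {f : A → ℝ} {a : ℝ} (hf : HasSum f a) (c : ℝ) :
    HasSum (fun x => f x * c) (a * c) := hf.mul_right c

theorem hasSum_pi {S : Type} {k : ℕ} (f : Fin k → S → ℝ) (a : Fin k → ℝ)
    (h0 : ∀ j s, 0 ≤ f j s) (h : ∀ j, HasSum (f j) (a j)) :
    HasSum (fun t : Fin k → S => ∏ j, f j (t j)) (∏ j, a j) := by
  induction k with
  | zero =>
    simp only [Finset.univ_eq_empty, Finset.prod_empty]
    exact hasSum_unique _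
  | succ k ih =>
    have ih' := ih (fun j => f j.succ) (fun j => a j.succ) (fun j => h0 j.succ)
      (fun j => h j.succ)
    have hm := hasSum_mul_nonneg (h 0) ih' (h0 0)
      (fun t => Finset.prod_nonneg fun j _ => h0 j.succ (t j))
    rw [Fin.prod_univ_succ]
    refine ((Fin.consEquiv (fun _ => S)).hasSum_iff).1 ?_
    have e : ((fun t : Fin (k + 1) → S => ∏ j, f j (t j)) ∘ (Fin.consEquiv (fun _ => S))) =
        fun z : S × (Fin k → S) => f 0 z.1 * ∏ j, f j.succ (z.2 j) := by
      funext z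
      simp only [Function.comp, Fin.prod_univ_succ]
      rfl
    rw [e]
    exact hm

theorem pois_nonneg {d : ℝ} (hd : 0 ≤ d) (k : ℕ) : 0 ≤ pois d k := by
  unfold pois
  positivity

theorem pois_pos {d : ℝ} (hd : 0 < d) (k : ℕ) : 0 < pois d k := by
  unfold pois
  positivity

theorem hasSum_pois (d : ℝ) : HasSum (pois d) 1 := by
  have h := hasSum_cmul (NormedSpace.expSeries_div_hasSum_exp (d : ℝ)) (Real.exp (-d))
  rw [← Real.exp_eq_exp_ℝ, ← Real.exp_add] at h
  simp only [neg_add_cancel, Real.exp_zero] at h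
  have e : pois d = fun k : ℕ => Real.exp (-d) * (d ^ k / (k.factorial : ℝ)) := by
    funext k
    unfold pois
    ring
  rw [e]
  exact h

theorem pois_succ_mul (d : ℝ) (k : ℕ) : pois d (k + 1) * ((k + 1 : ℕ) : ℝ) = d * pois d k := by
  unfold pois
  rw [Nat.factorial_succ]
  have h1 : ((k + 1 : ℕ) : ℝ) ≠ 0 := by positivity
  have h2 : (k.factorial : ℝ) ≠ 0 := by positivity
  push_cast at h1 ⊢
  field_simp
  ring

theorem hasSum_pois_mul (d : ℝ) : HasSum (fun k : ℕ => pois d k * (k : ℝ)) d := by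
  rw [← hasSum_nat_add_iff' 1]
  simp only [Finset.range_one, Finset.sum_singleton, Nat.cast_zero, mul_zero, sub_zero]
  simp only [pois_succ_mul]
  have h := hasSum_cmul (hasSum_pois d) d
  rw [mul_one] at h
  exact h

theorem gw_nonneg {d : ℝ} (hd : 0 ≤ d) : ∀ (n : ℕ) (T : Shape n), 0 ≤ gw d n T
  | 0, _ => zero_le_one
  | n + 1, ⟨k, t⟩ =>
    mul_nonneg (pois_nonneg hd k) (Finset.prod_nonneg fun j _ => gw_nonneg hd n (t j))

theorem hasSum_shape {n : ℕ} {F : Shape (n + 1) → ℝ} {G : ℕ → ℝ} {a : ℝ} (h0 : ∀ T, 0 ≤ F T)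
    (h1 : ∀ k, HasSum (fun t : Fin k → Shape n => F ⟨k, t⟩) (G k)) (h2 : HasSum G a) :
    HasSum F a := by
  refine HasSum.sigma_of_hasSum h2 h1 ((summable_sigma_of_nonneg h0).2
    ⟨fun k => (h1 k).summable, ?_⟩)
  have : (fun k => ∑' t : Fin k → Shape n, F ⟨k, t⟩) = G := by
    funext k
    exact (h1 k).tsum_eq
  rw [this]
  exact h2.summable

theorem hasSum_gw {d : ℝ} (hd : 0 ≤ d) : ∀ n, HasSum (gw d n) 1
  | 0 => by
    have h : HasSum (fun _ : Unit => (1 : ℝ)) 1 := hasSum_unique _
    exact h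
  | n + 1 => by
    refine hasSum_shape (G := pois d) (gw_nonneg hd (n + 1)) (fun k => ?_) (hasSum_pois d)
    have h := hasSum_cmul (hasSum_pi (fun _ : Fin k => gw d n) (fun _ => 1)
      (fun _ => gw_nonneg hd n) (fun _ => hasSum_gw hd n)) (pois d k)
    simp only [Finset.prod_const_one, mul_one] at h
    exact h

/-- the mean of a sum over the children -/
theorem hasSum_gw_sum {d : ℝ} (hd : 0 ≤ d) {n : ℕ} {x : Shape n → ℝ} {X : ℝ}
    (hx : ∀ T, 0 ≤ x T) (hX : HasSum (fun T => gw d n T * x T) X) :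
    HasSum (fun T : Shape (n + 1) => gw d (n + 1) T * ∑ j, x (T.2 j)) (d * X) := by
  refine hasSum_shape (G := fun k => pois d k * (k : ℝ) * X)
    (fun T => mul_nonneg (gw_nonneg hd (n + 1) T) (Finset.sum_nonneg fun j _ => hx _))
    (fun k => ?_) (hasSum_mulc (hasSum_pois_mul d) X)
  have h1 : ∀ i : Fin k, HasSum (fun t : Fin k → Shape n => (∏ j, gw d n (t j)) * x (t i)) X := by
    intro i
    have h := hasSum_pi (fun j s => gw d n s * (if j = i then x s else 1))
      (fun j => if j = i then X else 1)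
      (fun j s => mul_nonneg (gw_nonneg hd n s) (by split_ifs; exact hx s; exact zero_le_one))
      (fun j => by
        split_ifs
        · exact hX
        · simpa using hasSum_gw hd n)
    simp only [Finset.prod_mul_distrib, Finset.prod_ite_eq', Finset.mem_univ, if_true] at h
    exact h
  have h2 := hasSum_cmul (hasSum_sum (s := Finset.univ) fun i _ => h1 i) (pois d k)
  simp only [Finset.sum_const, Finset.card_univ, Fintype.card_fin, nsmul_eq_mul] at h2
  have e : (fun t : Fin k → Shape n => gw d (n + 1) ⟨k, t⟩ * ∑ j, x (t j)) =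
      fun t => pois d k * ∑ i, (∏ j, gw d n (t j)) * x (t i) := by
    funext t
    show pois d k * (∏ j, gw d n (t j)) * ∑ j, x (t j) = _
    rw [← Finset.mul_sum]
    ring
  rw [mul_assoc]
  show HasSum (fun t : Fin k → Shape n => gw d (n + 1) ⟨k, t⟩ * ∑ j, x (t j)) _
  rw [e]
  exact h2

/-- the mean of the product over the children, on the event of exactly two children -/
theorem hasSum_gw_two {d : ℝ} (hd : 0 ≤ d) {n : ℕ} {x : Shape n → ℝ} {X : ℝ}
    (hx : ∀ T, 0 ≤ x T) (hX : HasSum (fun T => gw d n T * x T) X) :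
    HasSum (fun T : Shape (n + 1) => gw d (n + 1) T * (if T.1 = 2 then ∏ j, x (T.2 j) else 0))
      (pois d 2 * X ^ 2) := by
  refine hasSum_shape (G := fun k => if k = 2 then pois d 2 * X ^ 2 else 0)
    (fun T => mul_nonneg (gw_nonneg hd (n + 1) T) (by
      split_ifs
      · exact Finset.prod_nonneg fun j _ => hx _
      · exact le_rfl))
    (fun k => ?_) (hasSum_ite_eq 2 _)
  show HasSum (fun t : Fin k → Shape n => pois d k * (∏ j, gw d n (t j)) *
    (if k = 2 then ∏ j, x (t j) else 0)) _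
  split_ifs with hk
  · subst hk
    have h := hasSum_cmul (hasSum_pi (fun (_ : Fin 2) s => gw d n s * x s) (fun _ => X)
      (fun _ s => mul_nonneg (gw_nonneg hd n s) (hx s)) (fun _ => hX)) (pois d 2)
    simp only [Finset.prod_mul_distrib, Finset.prod_const, Finset.card_univ, Fintype.card_fin] at h
    simp only [mul_assoc]
    exact h
  · simp only [mul_zero]
    exact hasSum_zero

end Vale.Agent.P154
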