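import Vale.Agent.P154.Defs

namespace Vale.Agent.P154

/-- Rooted trees cut at depth `n`, children listed in order: a vertex at depth `n` carries no
further information, and a vertex above depth `n` has some number `k` of children, each the root
of a tree cut at depth one less. -/
def Shape : ℕ → Type
  | 0 => Unit
  | n + 1 => Σ k : ℕ, (Fin k → Shape n)

/-- The Poisson weight `exp (-d) d^k / k!`. -/
noncomputable def pois (d : ℝ) (k : ℕ) : ℝ := Real.exp (-d) * d ^ k / (k.factorial : ℝ)

/-- Probability that the first `n` levels of the Galton-Watson tree with independent Poisson(`d`)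
offspring counts are the given tree. -/
noncomputable def gw (d : ℝ) : (n : ℕ) → Shape n → ℝ
  | 0, _ => 1
  | n + 1, ⟨k, t⟩ => pois d k * ∏ j : Fin k, gw d n (t j)

/-- Spin configurations on the depth `n` vertices of a tree cut at depth `n`. -/
def Cfg : (n : ℕ) → Shape n → Type
  | 0, _ => Fin 3
  | n + 1, ⟨k, t⟩ => (j : Fin k) → Cfg n (t j)

instance Cfg.instFintype : (n : ℕ) → (T : Shape n) → Fintype (Cfg n T)
  | 0, _ => inferInstanceAs (Fintype (Fin 3))
  | n + 1, ⟨k, t⟩ =>
    have := fun j => Cfg.instFintype n (t j)
    inferInstanceAs (Fintype ((j : Fin k) → Cfg n (t j)))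

/-- `leafLawT lam n T i c`: probability that the spins at depth `n` of the tree `T` equal `c`,
given root spin `i`. -/
noncomputable def leafLawT (lam : ℝ) : (n : ℕ) → (T : Shape n) → Fin 3 → Cfg n T → ℝ
  | 0, _, i, c => if (show Fin 3 from c) = i then 1 else 0
  | n + 1, ⟨k, t⟩, i, c =>
    ∏ j : Fin k, ∑ s : Fin 3, chan lam i s * leafLawT lam n (t j) s (c j)

/-- Probability of the configuration `c` on the tree `T` when the root spin is uniform. -/
noncomputable def margT (lam : ℝ) (n : ℕ) (T : Shape n) (c : Cfg n T) : ℝ :=
  ∑ i : Fin 3, (1 / 3) * leafLawT lam n T i c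

/-- Posterior probability of root spin `i` given the tree `T` and the configuration `c`. -/
noncomputable def postT (lam : ℝ) (n : ℕ) (T : Shape n) (i : Fin 3) (c : Cfg n T) : ℝ :=
  (1 / 3) * leafLawT lam n T i c / margT lam n T c

/-- Expectation over the spins, on the fixed tree `T`, of the distance of the posterior from
uniform. -/
noncomputable def aT (lam : ℝ) (n : ℕ) (T : Shape n) : ℝ :=
  ∑ c : Cfg n T, margT lam n T c * ((1 / 2) * ∑ i : Fin 3, |postT lam n T i c - 1 / 3|)

/-- `a_n` for the Poisson(`d`) Galton-Watson tree: expectation over the tree and the spins. -/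
noncomputable def aGW (d lam : ℝ) (n : ℕ) : ℝ := ∑' T : Shape n, gw d n T * aT lam n T

end Vale.Agent.P154
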