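import Vale.Agent.P154.GWTree
import Vale.Agent.P154.GWAvg

namespace Vale.Agent.P154

open Finset Filter Topology

theorem summable_gw_mul {d : ℝ} (hd : 0 ≤ d) {n : ℕ} {h : Shape n → ℝ} (h0 : ∀ T, 0 ≤ h T)
    (h1 : ∀ T, h T ≤ 1) : Summable (fun T => gw d n T * h T) :=
  Summable.of_nonneg_of_le (fun T => mul_nonneg (gw_nonneg hd n T) (h0 T))
    (fun T => mul_le_of_le_one_right (gw_nonneg hd n T) (h1 T)) (hasSum_gw hd n).summable

/-- mean over the tree -/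
noncomputable def mGW (d : ℝ) (n : ℕ) (h : Shape n → ℝ) : ℝ := ∑' T, gw d n T * h T

theorem mGW_nonneg {d : ℝ} (hd : 0 ≤ d) {n : ℕ} {h : Shape n → ℝ} (h0 : ∀ T, 0 ≤ h T) :
    0 ≤ mGW d n h := tsum_nonneg fun T => mul_nonneg (gw_nonneg hd n T) (h0 T)

theorem mGW_mono {d : ℝ} (hd : 0 ≤ d) {n : ℕ} {h h' : Shape n → ℝ} (h0 : ∀ T, 0 ≤ h T)
    (hh : ∀ T, h T ≤ h' T) (h1 : ∀ T, h' T ≤ 1) : mGW d n h ≤ mGW d n h' :=
  (summable_gw_mul hd h0 fun T => (hh T).trans (h1 T)).tsum_le_tsum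
    (fun T => mul_le_mul_of_nonneg_left (hh T) (gw_nonneg hd n T))
    (summable_gw_mul hd (fun T => (h0 T).trans (hh T)) h1)

theorem mGW_rec {d : ℝ} (hd : 0 ≤ d) {x : (n : ℕ) → Shape n → ℝ} {mu ga : ℝ}
    (hx0 : ∀ n T, 0 ≤ x n T) (hx1 : ∀ n T, x n T ≤ 1)
    (hrec : ∀ (n k : ℕ) (t : Fin k → Shape n), x (n + 1) ⟨k, t⟩ ≤ mu * ∑ j, x n (t j)
      - ga * (if k = 2 then ∏ j, x n (t j) else 0)) (n : ℕ) :
    mGW d (n + 1) (x (n + 1)) ≤ d * mu * mGW d n (x n) - ga * pois d 2 * (mGW d n (x n)) ^ 2 := by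
  have hX := (summable_gw_mul hd (hx0 n) (hx1 n)).hasSum
  have hX' := (summable_gw_mul hd (hx0 (n + 1)) (hx1 (n + 1))).hasSum
  have s1 := hasSum_cmul (hasSum_gw_sum hd (hx0 n) hX) mu
  have s2 := hasSum_cmul (hasSum_gw_two hd (hx0 n) hX) ga
  have s3 := s1.sub s2
  have key := hasSum_le (fun T => ?_) hX' s3
  · unfold mGW
    calc _ ≤ _ := key
      _ = _ := by ring
  · obtain ⟨k, t⟩ := T
    have := mul_le_mul_of_nonneg_left (hrec n k t) (gw_nonneg hd (n + 1) ⟨k, t⟩)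
    calc _ ≤ _ := this
      _ = _ := by ring

theorem mGW_tendsto {d : ℝ} (hd : 0 < d) {x : (n : ℕ) → Shape n → ℝ} {mu ga : ℝ}
    (hga : 0 < ga) (hx0 : ∀ n T, 0 ≤ x n T) (hx1 : ∀ n T, x n T ≤ 1)
    (hrec : ∀ (n k : ℕ) (t : Fin k → Shape n), x (n + 1) ⟨k, t⟩ ≤ mu * ∑ j, x n (t j)
      - ga * (if k = 2 then ∏ j, x n (t j) else 0)) (hKS : d * mu ≤ 1) :
    Tendsto (fun n => mGW d n (x n)) atTop (𝓝 0) := by
  refine tendsto_zero_of_rec (c := ga * pois d 2) (mul_pos hga (pois_pos hd 2))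
    (fun n => mGW_nonneg hd.le (hx0 n)) (fun n => ?_)
  have h1 := mGW_rec hd.le hx0 hx1 hrec n
  have h2 := mul_le_mul_of_nonneg_right hKS (mGW_nonneg hd.le (hx0 n))
  linarith

theorem sq_mGW_le {d : ℝ} (hd : 0 ≤ d) {n : ℕ} {a y : Shape n → ℝ} (ha0 : ∀ T, 0 ≤ a T)
    (ha1 : ∀ T, a T ≤ 1) (hy1 : ∀ T, y T ≤ 1) (h : ∀ T, (a T) ^ 2 ≤ y T) :
    (mGW d n a) ^ 2 ≤ mGW d n y := by
  have hy0 : ∀ T, 0 ≤ y T := fun T => (sq_nonneg _).trans (h T)
  have sa := (summable_gw_mul hd ha0 ha1).hasSum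
  have sy := (summable_gw_mul hd hy0 hy1).hasSum
  have s1 := hasSum_gw hd n
  have s := (sy.sub (hasSum_cmul sa (2 * mGW d n a))).add (hasSum_cmul s1 ((mGW d n a) ^ 2))
  have key := s.nonneg fun T => by
    have h1 : 0 ≤ gw d n T * (y T - (a T) ^ 2) :=
      mul_nonneg (gw_nonneg hd n T) (by linarith [h T])
    have h2 : 0 ≤ gw d n T * (a T - mGW d n a) ^ 2 :=
      mul_nonneg (gw_nonneg hd n T) (sq_nonneg _)
    nlinarith
  unfold mGW at key ⊢
  nlinarith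

variable {o g hh : V → ℝ} {c : ℝ}

theorem aT_nonneg' {lam : ℝ} {n : ℕ} {T : Shape n} (hg : Good0 (lkT lam n T)) :
    0 ≤ aT lam n T := by
  rw [aT_eq]
  refine Finset.sum_nonneg fun x _ => mul_nonneg (div_pos (hg.zpos x) (by norm_num)).le ?_
  unfold tvF
  have : 0 ≤ ∑ i : Fin 3, |nrm (lkT lam n T x) i - 1 / 3| := Finset.sum_nonneg fun i _ => abs_nonneg _
  positivity

/-- nonreconstruction on the Poisson Galton-Watson tree for `lam < 1` -/
theorem gw_nonreconstruction_lt (D : ConeData o g hh c) {d lam : ℝ} (hd : 0 < d) (h0 : 0 ≤ lam)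
    (h1 : lam < 1) (hKS : d * lam ^ 2 ≤ 1) :
    (∀ n, Summable fun T => gw d n T * aT lam n T) ∧ Tendsto (aGW d lam) atTop (𝓝 0) := by
  have hgood := fun n T => (good0_lkT D h0 h1 n T).1
  have hx0 := xT_nonneg D h0 h1
  have hx1 := xT_le_one D h0 h1
  have ha0 : ∀ n T, 0 ≤ aT lam n T := fun n T => aT_nonneg' (hgood n T)
  have hsq : ∀ n T, (aT lam n T) ^ 2 ≤ xT lam n T := fun n T => by
    have := aT_sq_le (hgood n T)
    linarith [hx0 n T]
  have ha1 : ∀ n T, aT lam n T ≤ 1 := fun n T => by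
    nlinarith [hsq n T, hx1 n T, sq_nonneg (aT lam n T - 1)]
  refine ⟨fun n => summable_gw_mul hd.le (ha0 n) (ha1 n), ?_⟩
  have hrec := xT_succ_le D h0 h1
  have hx : Tendsto (fun n => mGW d n (xT lam n)) atTop (𝓝 0) := by
    rcases eq_or_lt_of_le h0 with hz | hpos
    · have : ∀ n, mGW d (n + 1) (xT lam (n + 1)) = 0 := by
        intro n
        have h2 := mGW_rec hd.le hx0 hx1 hrec n
        have h3 : lam ^ 2 = 0 := by rw [← hz]; norm_num
        rw [h3] at h2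
        simp only [mul_zero, zero_mul, ne_eq, OfNat.ofNat_ne_zero, not_false_eq_true, zero_pow,
          sub_zero] at h2
        exact le_antisymm h2 (mGW_nonneg hd.le (hx0 _))
      rw [← tendsto_add_atTop_iff_nat 1]
      simp only [this]
      exact tendsto_const_nhds
    · refine mGW_tendsto hd ?_ hx0 hx1 hrec hKS
      have : 0 < 1 - lam ^ 2 := by nlinarith
      have := D.cpos
      positivity
  have hs : Tendsto (fun n => Real.sqrt (mGW d n (xT lam n))) atTop (𝓝 0) := by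
    have h3 := (Real.continuous_sqrt.tendsto 0).comp hx
    rw [Real.sqrt_zero] at h3
    exact h3
  refine squeeze_zero (fun n => mGW_nonneg hd.le (ha0 n)) (fun n => ?_) hs
  exact Real.le_sqrt_of_sq_le (sq_mGW_le hd.le (ha0 n) (ha1 n) (hx1 n) (hsq n))

end Vale.Agent.P154
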