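import Vale.Agent.P154.Reduction

namespace Vale.Agent.P154

open Finset

/-- merge of `k` possibly different families -/
def pwD {k : ℕ} {X : Fin k → Type} (l : (j : Fin k) → X j → V) : ((j : Fin k) → X j) → V :=
  fun c i => ∏ j, l j (c j) i

theorem sum_pwD_succ {k : ℕ} {X : Fin (k + 1) → Type} [∀ j, Fintype (X j)]
    (l : (j : Fin (k + 1)) → X j → V) (H : V → ℝ) :
    ∑ c : (j : Fin (k + 1)) → X j, H (pwD l c) =
      ∑ z : X 0 × ((j : Fin k) → X j.succ), H (mfam (l 0) (pwD fun j => l j.succ) z) := by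
  refine Fintype.sum_equiv (Fin.consEquiv X).symm _ _ ?_
  intro c
  congr 1
  funext i
  simp only [pwD, mfam, Fin.prod_univ_succ]
  rfl

theorem Ex_pwD_succ {k : ℕ} {X : Fin (k + 1) → Type} [∀ j, Fintype (X j)]
    (l : (j : Fin (k + 1)) → X j → V) (f : V → ℝ) :
    Ex (pwD l) f = Ex (mfam (l 0) (pwD fun j => l j.succ)) f :=
  sum_pwD_succ l (fun u => Zs u / 3 * f (nrm u))

theorem sum_pwD_two {X : Fin 2 → Type} [∀ j, Fintype (X j)]
    (l : (j : Fin 2) → X j → V) (H : V → ℝ) :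
    ∑ c : (j : Fin 2) → X j, H (pwD l c) = ∑ z : X 0 × X 1, H (mfam (l 0) (l 1) z) := by
  refine Fintype.sum_equiv (piFinTwoEquiv X) _ _ ?_
  intro c
  congr 1
  funext i
  simp only [pwD, mfam, Fin.prod_univ_two]
  rfl

theorem Ex_pwD_two {X : Fin 2 → Type} [∀ j, Fintype (X j)]
    (l : (j : Fin 2) → X j → V) (f : V → ℝ) :
    Ex (pwD l) f = Ex (mfam (l 0) (l 1)) f :=
  sum_pwD_two l (fun u => Zs u / 3 * f (nrm u))

theorem good_pwD : ∀ {k : ℕ} {X : Fin k → Type} [∀ j, Fintype (X j)]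
    {l : (j : Fin k) → X j → V}, (∀ j, Good (l j)) → Good (pwD l)
  | 0, X, _, l, _ => {
      pos := fun c i => by simp [pwD]
      norm := fun i => by simp [pwD]
      symm := fun s H => by
        refine Finset.sum_congr rfl fun c _ => ?_
        congr 1 }
  | k + 1, X, _, l, h => by
    have hk := good_mfam (h 0) (good_pwD (l := fun j => l j.succ) fun j => h j.succ)
    exact {
      pos := fun c i => Finset.prod_pos fun j _ => (h j).pos _ _
      norm := fun i => by
        rw [sum_pwD_succ l (fun u => u i)]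
        exact hk.norm i
      symm := fun s H => by
        rw [sum_pwD_succ l (fun u => H (u ∘ s)), sum_pwD_succ l H]
        exact hk.symm s H }

theorem Ex_pwD_zero {X : Fin 0 → Type} [∀ j, Fintype (X j)]
    (l : (j : Fin 0) → X j → V) (f : V → ℝ) : Ex (pwD l) f = f (fun _ => 1 / 3) := by
  unfold Ex
  have h1 : ∀ c, pwD l c = fun _ => 1 := by
    intro c
    funext i
    simp [pwD]
  simp only [h1]
  have h2 : Zs (fun _ => (1 : ℝ)) = 3 := by simp [Zs]
  have h3 : nrm (fun _ => (1 : ℝ)) = fun _ => 1 / 3 := by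
    funext i
    simp only [nrm, h2]
  rw [h2, h3]
  simp

variable {o g hh : V → ℝ} {c : ℝ}

theorem ConeData.unif (D : ConeData o g hh c) : 0 ≤ o (fun _ => 1 / 3) := by
  have h := D.chan 0 (fun _ => 1 / 3) le_rfl (by norm_num) (fun _ => by norm_num) (by simp)
  have e : chanP 0 (fun _ => 1 / 3) = fun _ => 1 / 3 := by
    funext i
    simp [chanP]
  rw [e] at h
  simpa using h

theorem Ex_pwD_o_nonneg (D : ConeData o g hh c) : ∀ {k : ℕ} {X : Fin k → Type}
    [∀ j, Fintype (X j)] {l : (j : Fin k) → X j → V}, (∀ j, Good (l j)) →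
    (∀ j, 0 ≤ Ex (l j) o) → 0 ≤ Ex (pwD l) o
  | 0, X, _, l, _, _ => by rw [Ex_pwD_zero]; exact D.unif
  | k + 1, X, _, l, h, ho => by
    rw [Ex_pwD_succ]
    have hG := good_pwD (l := fun j => l j.succ) fun j => h j.succ
    refine le_trans ?_ (le_Ex_mfam_o D.j2 (h 0) hG)
    have h1 := Ex_pwD_o_nonneg D (l := fun j => l j.succ) (fun j => h j.succ) (fun j => ho j.succ)
    have h2 := Ex_nonneg (h 0) (f := hh) D.h_nonneg
    have h3 := Ex_nonneg hG (f := hh) D.h_nonneg
    have h4 := ho 0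
    positivity

theorem aF_unif : aF (fun _ => 1 / 3) = 0 := by
  unfold aF
  norm_num

theorem Ex_pwD_a_le (D : ConeData o g hh c) : ∀ {k : ℕ} {X : Fin k → Type}
    [∀ j, Fintype (X j)] {l : (j : Fin k) → X j → V}, (∀ j, Good (l j)) →
    (∀ j, 0 ≤ Ex (l j) o) → Ex (pwD l) aF ≤ ∑ j, Ex (l j) aF
  | 0, X, _, l, _, _ => by rw [Ex_pwD_zero, aF_unif]; simp
  | k + 1, X, _, l, h, ho => by
    rw [Ex_pwD_succ, Fin.sum_univ_succ]
    have hG := good_pwD (l := fun j => l j.succ) fun j => h j.succ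
    refine (Ex_mfam_a_le D.j1 (h 0) hG).trans ?_
    have h0 := Ex_pwD_a_le D (l := fun j => l j.succ) (fun j => h j.succ) (fun j => ho j.succ)
    have h1 := Ex_pwD_o_nonneg D (l := fun j => l j.succ) (fun j => h j.succ) (fun j => ho j.succ)
    have h2 := Ex_nonneg (h 0) (f := g) D.g_nonneg
    have h3 := Ex_nonneg hG (f := g) D.g_nonneg
    have h4 := mul_nonneg (ho 0) h3
    have h5 := mul_nonneg h1 h2
    have h6 := Ex_nonneg (h 0) (f := alF) (fun p hp => alF_nonneg hp)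
    have h7 := Ex_nonneg hG (f := alF) (fun p hp => alF_nonneg hp)
    have h8 := mul_nonneg D.cpos.le (mul_nonneg h6 h7)
    linarith

theorem Ex_pwD_two_a_le (D : ConeData o g hh c) {X : Fin 2 → Type}
    [∀ j, Fintype (X j)] {l : (j : Fin 2) → X j → V} (h : ∀ j, Good (l j))
    (ho : ∀ j, 0 ≤ Ex (l j) o) :
    Ex (pwD l) aF ≤ ∑ j, Ex (l j) aF - c * ∏ j, Ex (l j) alF := by
  rw [Ex_pwD_two, Fin.sum_univ_two, Fin.prod_univ_two]
  refine (Ex_mfam_a_le D.j1 (h 0) (h 1)).trans ?_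
  have h2 := Ex_nonneg (h 0) (f := g) D.g_nonneg
  have h3 := Ex_nonneg (h 1) (f := g) D.g_nonneg
  have h4 := mul_nonneg (ho 0) h3
  have h5 := mul_nonneg (ho 1) h2
  linarith

end Vale.Agent.P154
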