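import Vale.Agent.P154.GWDefs
import Vale.Agent.P154.MergeD

namespace Vale.Agent.P154

open Finset

/-- likelihood vectors of the depth `n` configurations on the tree `T` -/
noncomputable def lkT (lam : ℝ) (n : ℕ) (T : Shape n) : Cfg n T → V :=
  fun c i => leafLawT lam n T i c

theorem lkT_succ (lam : ℝ) (n k : ℕ) (t : Fin k → Shape n) :
    lkT lam (n + 1) ⟨k, t⟩ = pwD (fun j c => chanV lam (lkT lam n (t j) c)) := rfl

theorem lkT_zero (lam : ℝ) (T : Shape 0) : lkT lam 0 T = lk 0 lam 0 := rfl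

variable {o g hh : V → ℝ} {c : ℝ}

theorem good0_lkT (D : ConeData o g hh c) {lam : ℝ} (h0 : 0 ≤ lam) (h1 : lam < 1) :
    ∀ (n : ℕ) (T : Shape n), Good0 (lkT lam n T) ∧ 0 ≤ Ex (lkT lam n T) o
  | 0, _ => ⟨good0_zero 0 lam, Ex_zero_o D.delta 0 lam⟩
  | n + 1, ⟨k, t⟩ => by
    have ih := fun j => good0_lkT D h0 h1 n (t j)
    have hG := fun j => good_chan (ih j).1 h0 h1
    have hO : ∀ j, 0 ≤ Ex (fun c => chanV lam (lkT lam n (t j) c)) o := fun j =>
      le_trans (mul_nonneg (by positivity) (ih j).2) (Ex_chan_o (ih j).1 (D.chan lam · h0 h1))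
    rw [lkT_succ]
    exact ⟨(good_pwD hG).good0, Ex_pwD_o_nonneg D hG hO⟩

noncomputable def xT (lam : ℝ) (n : ℕ) (T : Shape n) : ℝ := Ex (lkT lam n T) aF

theorem xT_nonneg (D : ConeData o g hh c) {lam : ℝ} (h0 : 0 ≤ lam) (h1 : lam < 1)
    (n : ℕ) (T : Shape n) : 0 ≤ xT lam n T := Ex_a_nonneg (good0_lkT D h0 h1 n T).1

theorem Ex_a_le_one {X : Type} [Fintype X] {l : X → V} (h : Good0 l) : Ex l aF ≤ 1 := by
  have hw : ∑ x, Zs (l x) / 3 = 1 := by
    unfold Zs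
    rw [← Finset.sum_div, Finset.sum_comm]
    simp only [h.norm]
    norm_num
  rw [← hw]
  refine Finset.sum_le_sum fun x _ => ?_
  have hw : 0 ≤ Zs (l x) / 3 := (div_pos (h.zpos x) (by norm_num)).le
  have ha1 : aF (nrm (l x)) ≤ 1 :=
    aF_le_one' fun i => div_nonneg (h.nonneg x i) (h.zpos x).le
  nlinarith

theorem xT_le_one (D : ConeData o g hh c) {lam : ℝ} (h0 : 0 ≤ lam) (h1 : lam < 1)
    (n : ℕ) (T : Shape n) : xT lam n T ≤ 1 := Ex_a_le_one (good0_lkT D h0 h1 n T).1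

/-- the tree-wise recursion -/
theorem xT_succ_le (D : ConeData o g hh c) {lam : ℝ} (h0 : 0 ≤ lam) (h1 : lam < 1)
    (n k : ℕ) (t : Fin k → Shape n) :
    xT lam (n + 1) ⟨k, t⟩ ≤ lam ^ 2 * ∑ j, xT lam n (t j)
      - c * (lam ^ 2 * (1 - lam ^ 2)) ^ 2 * (if k = 2 then ∏ j, xT lam n (t j) else 0) := by
  have ih := fun j => good0_lkT D h0 h1 n (t j)
  have hG := fun j => good_chan (ih j).1 h0 h1
  have hO : ∀ j, 0 ≤ Ex (fun c => chanV lam (lkT lam n (t j) c)) o := fun j =>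
    le_trans (mul_nonneg (by positivity) (ih j).2) (Ex_chan_o (ih j).1 (D.chan lam · h0 h1))
  have hsum : ∑ j, Ex (fun c => chanV lam (lkT lam n (t j) c)) aF
      = lam ^ 2 * ∑ j, xT lam n (t j) := by
    rw [Finset.mul_sum]
    exact Finset.sum_congr rfl fun j _ => Ex_chan_a (ih j).1 lam
  unfold xT at hsum ⊢
  rw [lkT_succ]
  split_ifs with hk
  · subst hk
    have key := Ex_pwD_two_a_le D hG hO
    rw [hsum] at key
    refine key.trans ?_
    have hl : 0 ≤ lam ^ 2 * (1 - lam ^ 2) := by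
      have : 0 ≤ 1 - lam ^ 2 := by nlinarith
      positivity
    have hprod : (lam ^ 2 * (1 - lam ^ 2)) ^ 2 * ∏ j, Ex (lkT lam n (t j)) aF ≤
        ∏ j, Ex (fun c => chanV lam (lkT lam n (t j) c)) alF := by
      rw [Fin.prod_univ_two, Fin.prod_univ_two]
      have a0 := Ex_chan_al (ih 0).1 (lam := lam)
      have a1 := Ex_chan_al (ih 1).1 (lam := lam)
      have x0 := Ex_a_nonneg (ih 0).1
      have x1 := Ex_a_nonneg (ih 1).1
      calc (lam ^ 2 * (1 - lam ^ 2)) ^ 2 * (Ex (lkT lam n (t 0)) aF * Ex (lkT lam n (t 1)) aF)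
          = (lam ^ 2 * (1 - lam ^ 2) * Ex (lkT lam n (t 0)) aF) *
            (lam ^ 2 * (1 - lam ^ 2) * Ex (lkT lam n (t 1)) aF) := by ring
        _ ≤ _ := mul_le_mul a0 a1 (mul_nonneg hl x1) (le_trans (mul_nonneg hl x0) a0)
    have := mul_le_mul_of_nonneg_left hprod D.cpos.le
    linarith
  · have key := Ex_pwD_a_le D hG hO
    rw [hsum] at key
    rw [mul_zero, sub_zero]
    exact key

theorem aT_eq (lam : ℝ) (n : ℕ) (T : Shape n) : aT lam n T = Ex (lkT lam n T) tvF := by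
  unfold aT Ex tvF
  refine Finset.sum_congr rfl fun c _ => ?_
  have e1 : margT lam n T c = Zs (lkT lam n T c) / 3 := by
    unfold margT Zs lkT
    rw [← Finset.mul_sum]
    ring
  have e2 : ∀ i, postT lam n T i c = nrm (lkT lam n T c) i := by
    intro i
    unfold postT nrm
    rw [e1]
    show 1 / 3 * lkT lam n T c i / (Zs (lkT lam n T c) / 3) = _
    rcases eq_or_ne (Zs (lkT lam n T c)) 0 with hz | hz
    · simp [hz]
    · field_simp
  simp only [e1, e2]

theorem aT_sq_le {lam : ℝ} {n : ℕ} {T : Shape n} (hg : Good0 (lkT lam n T)) :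
    (aT lam n T) ^ 2 ≤ xT lam n T / 2 := by
  rw [aT_eq]
  refine (sq_Ex_le hg tvF).trans ?_
  unfold xT Ex
  rw [Finset.sum_div]
  refine Finset.sum_le_sum fun x _ => ?_
  have hw : 0 ≤ Zs (lkT lam n T x) / 3 := (div_pos (hg.zpos x) (by norm_num)).le
  have := tv_sq_le (nrm_sum3 (hg.zpos x))
  rw [mul_div_assoc]
  exact mul_le_mul_of_nonneg_left this hw

end Vale.Agent.P154
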