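import Vale.Agent.P154.Family

namespace Vale.Agent.P154

open Finset

variable {X Y : Type} [Fintype X] [Fintype Y]

noncomputable def alF (p : V) : ℝ := aF p * (1 - aF p)

theorem alF_nonneg {p : V} (h : InSimplex p) : 0 ≤ alF p :=
  mul_nonneg (aF_nonneg h) (by linarith [aF_le_one h])

theorem sum_sum_mul (w : X → ℝ) (w' : Y → ℝ) (F : X → ℝ) (G : Y → ℝ) :
    ∑ x, ∑ y, w x * w' y * (F x * G y) = (∑ x, w x * F x) * (∑ y, w' y * G y) := by
  rw [Finset.sum_mul_sum]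
  refine Finset.sum_congr rfl fun x _ => Finset.sum_congr rfl fun y _ => ?_
  ring

variable {o g hh : V → ℝ}

theorem Ex_mfam_a_le {c : ℝ} (hJ1 : J1g o g c) {l : X → V} {l' : Y → V} (h : Good l)
    (h' : Good l') :
    Ex (mfam l l') aF ≤ Ex l aF + Ex l' aF - Ex l o * Ex l' g - Ex l' o * Ex l g
      - c * (Ex l alF * Ex l' alF) := by
  rw [Ex_mfam h h']
  have hb : ∀ x y, Zs (l x) / 3 * (Zs (l' y) / 3) *
      ((∑ s : Equiv.Perm (Fin 3), Dm (nrm (l x)) (nrm (l' y) ∘ s) *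
        aF (merge (nrm (l x)) (nrm (l' y) ∘ s))) / 6) ≤
      Zs (l x) / 3 * (Zs (l' y) / 3) * (aF (nrm (l x)) * 1)
      + Zs (l x) / 3 * (Zs (l' y) / 3) * (1 * aF (nrm (l' y)))
      - Zs (l x) / 3 * (Zs (l' y) / 3) * (o (nrm (l x)) * g (nrm (l' y)))
      - Zs (l x) / 3 * (Zs (l' y) / 3) * (g (nrm (l x)) * o (nrm (l' y)))
      - c * (Zs (l x) / 3 * (Zs (l' y) / 3) * (alF (nrm (l x)) * alF (nrm (l' y)))) := by
    intro x y
    have h1 := hJ1 _ _ (nrm_inSimplex (h.pos x)) (nrm_inSimplex (h'.pos y))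
    have h2 : 0 ≤ Zs (l x) / 3 * (Zs (l' y) / 3) :=
      mul_nonneg (weight_pos h x).le (weight_pos h' y).le
    have h3 := mul_le_mul_of_nonneg_left h1 h2
    refine h3.trans (le_of_eq ?_)
    unfold alF
    ring
  refine (Finset.sum_le_sum fun x _ => Finset.sum_le_sum fun y _ => hb x y).trans (le_of_eq ?_)
  simp only [Finset.sum_sub_distrib, Finset.sum_add_distrib, ← Finset.mul_sum, sum_sum_mul]
  simp only [mul_one, sum_weights h, sum_weights h', one_mul]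
  unfold Ex
  ring

theorem le_Ex_mfam_o (hJ2 : J2g o hh) {l : X → V} {l' : Y → V} (h : Good l) (h' : Good l') :
    Ex l o * Ex l' hh + Ex l' o * Ex l hh ≤ Ex (mfam l l') o := by
  rw [Ex_mfam h h']
  have hb : ∀ x y,
      Zs (l x) / 3 * (Zs (l' y) / 3) * (o (nrm (l x)) * hh (nrm (l' y)))
      + Zs (l x) / 3 * (Zs (l' y) / 3) * (hh (nrm (l x)) * o (nrm (l' y))) ≤
      Zs (l x) / 3 * (Zs (l' y) / 3) *
      ((∑ s : Equiv.Perm (Fin 3), Dm (nrm (l x)) (nrm (l' y) ∘ s) *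
        o (merge (nrm (l x)) (nrm (l' y) ∘ s))) / 6) := by
    intro x y
    have h1 := hJ2 _ _ (nrm_inSimplex (h.pos x)) (nrm_inSimplex (h'.pos y))
    have h2 : 0 ≤ Zs (l x) / 3 * (Zs (l' y) / 3) :=
      mul_nonneg (weight_pos h x).le (weight_pos h' y).le
    have h3 := mul_le_mul_of_nonneg_left h1 h2
    refine le_trans (le_of_eq ?_) h3
    ring
  refine le_trans (le_of_eq ?_) (Finset.sum_le_sum fun x _ => Finset.sum_le_sum fun y _ => hb x y)
  simp only [Finset.sum_add_distrib, sum_sum_mul]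
  unfold Ex
  ring

/-- `k`-fold merge of a family with itself -/
def pw (l : X → V) (k : ℕ) : (Fin k → X) → V := fun c i => ∏ j, l (c j) i

theorem sum_pw_succ (l : X → V) (k : ℕ) (H : V → ℝ) :
    ∑ c : Fin (k + 1) → X, H (pw l (k + 1) c) = ∑ z : X × (Fin k → X), H (mfam l (pw l k) z) := by
  refine Fintype.sum_equiv (Fin.consEquiv (fun _ => X)).symm _ _ ?_
  intro c
  congr 1
  funext i
  simp only [pw, mfam, Fin.prod_univ_succ]
  rfl

theorem Ex_pw_succ (l : X → V) (k : ℕ) (f : V → ℝ) :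
    Ex (pw l (k + 1)) f = Ex (mfam l (pw l k)) f :=
  sum_pw_succ l k (fun u => Zs u / 3 * f (nrm u))

theorem good_pw {l : X → V} (h : Good l) : ∀ k, Good (pw l k)
  | 0 => {
      pos := fun c i => by simp [pw]
      norm := fun i => by simp [pw]
      symm := fun s H => by
        refine Finset.sum_congr rfl fun c _ => ?_
        congr 1 }
  | k + 1 => by
    have hk := good_mfam h (good_pw h k)
    exact {
      pos := fun c i => Finset.prod_pos fun j _ => h.pos _ _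
      norm := fun i => by
        rw [sum_pw_succ l k (fun u => u i)]
        exact hk.norm i
      symm := fun s H => by
        rw [sum_pw_succ l k (fun u => H (u ∘ s)), sum_pw_succ l k H]
        exact hk.symm s H }

theorem Ex_pw_one (l : X → V) (f : V → ℝ) : Ex (pw l 1) f = Ex l f := by
  unfold Ex
  refine Fintype.sum_equiv (Equiv.funUnique (Fin 1) X) _ _ ?_
  intro c
  have : pw l 1 c = l (c 0) := by
    funext i
    simp [pw]
  rw [this]
  rfl

theorem Ex_pw_o_nonneg (hh0 : ∀ p, InSimplex p → 0 ≤ hh p) (hJ2 : J2g o hh) {l : X → V}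
    (h : Good l) (ho : 0 ≤ Ex l o) : ∀ k, 0 ≤ Ex (pw l (k + 1)) o
  | 0 => by rw [Ex_pw_one]; exact ho
  | k + 1 => by
    rw [Ex_pw_succ]
    refine le_trans ?_ (le_Ex_mfam_o hJ2 h (good_pw h (k + 1)))
    have h1 := Ex_pw_o_nonneg hh0 hJ2 h ho k
    have h2 := Ex_nonneg h (f := hh) hh0
    have h3 := Ex_nonneg (good_pw h (k + 1)) (f := hh) hh0
    positivity

theorem Ex_pw_a_step {c : ℝ} (hg0 : ∀ p, InSimplex p → 0 ≤ g p)
    (hh0 : ∀ p, InSimplex p → 0 ≤ hh p) (hJ1 : J1g o g c) (hJ2 : J2g o hh) {l : X → V}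
    (h : Good l) (ho : 0 ≤ Ex l o) (k : ℕ) :
    Ex (pw l (k + 2)) aF ≤ Ex l aF + Ex (pw l (k + 1)) aF
      - c * (Ex l alF * Ex (pw l (k + 1)) alF) := by
  rw [Ex_pw_succ]
  refine (Ex_mfam_a_le hJ1 h (good_pw h (k + 1))).trans ?_
  have h1 := Ex_pw_o_nonneg hh0 hJ2 h ho k
  have h2 := Ex_nonneg h (f := g) hg0
  have h3 := Ex_nonneg (good_pw h (k + 1)) (f := g) hg0
  have h4 := mul_nonneg ho h3
  have h5 := mul_nonneg h1 h2
  linarith

theorem Ex_pw_a_le {c : ℝ} (hc : 0 ≤ c) (hg0 : ∀ p, InSimplex p → 0 ≤ g p)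
    (hh0 : ∀ p, InSimplex p → 0 ≤ hh p) (hJ1 : J1g o g c) (hJ2 : J2g o hh) {l : X → V}
    (h : Good l) (ho : 0 ≤ Ex l o) : ∀ k : ℕ,
    Ex (pw l (k + 2)) aF ≤ (k + 2 : ℕ) * Ex l aF - c * (Ex l alF) ^ 2
  | 0 => by
    have h1 := Ex_pw_a_step hg0 hh0 hJ1 hJ2 h ho 0
    rw [Ex_pw_one, Ex_pw_one] at h1
    push_cast
    nlinarith
  | k + 1 => by
    have h1 := Ex_pw_a_step hg0 hh0 hJ1 hJ2 h ho (k + 1)
    have h2 := Ex_pw_a_le hc hg0 hh0 hJ1 hJ2 h ho k
    have h3 := Ex_nonneg h (f := alF) (fun p hp => alF_nonneg hp)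
    have h4 := Ex_nonneg (good_pw h (k + 2)) (f := alF) (fun p hp => alF_nonneg hp)
    have h5 := mul_nonneg hc (mul_nonneg h3 h4)
    push_cast at h2 ⊢
    linarith

end Vale.Agent.P154
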