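import Vale.Agent.P154.Reduction

namespace Vale.Agent.P154

/-- the improved cone functional, A3 minus a squared, divided by one minus a -/
noncomputable def oN (p : V) : ℝ := (A3 p - (aF p) ^ 2) / (1 - aF p)

noncomputable def gN (p : V) : ℝ := 2 * aF p * (1 - aF p)

theorem gN_nonneg {p : V} (h : InSimplex p) : 0 ≤ gN p := by
  have h1 := aF_nonneg h
  have h2 := aF_le_one h
  unfold gN
  have : 0 ≤ 1 - aF p := by linarith
  positivity

theorem oN_delta (i : Fin 3) : 0 ≤ oN (fun j => if i = j then 1 else 0) := by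
  fin_cases i <;> simp [oN, A3, aF]

/-- discriminant identity `a^3 - A3^2 = (27/4) prod (p_i - p_j)^2` on the plane `sum p = 1` -/
theorem A3_sq_le {p : V} (hs : p 0 + p 1 + p 2 = 1) : (A3 p) ^ 2 ≤ (aF p) ^ 3 := by
  have e : p 2 = 1 - p 0 - p 1 := by linarith
  have key : (aF p) ^ 3 - (A3 p) ^ 2 =
      27 / 4 * ((p 0 - p 1) * (p 1 - p 2) * (p 2 - p 0)) ^ 2 := by
    unfold aF A3
    rw [e]
    ring
  have : 0 ≤ 27 / 4 * ((p 0 - p 1) * (p 1 - p 2) * (p 2 - p 0)) ^ 2 := by positivity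
  linarith

theorem eps_identity {p : V} (hs : p 0 + p 1 + p 2 = 1) : epsF p = 1 - 3 * aF p + 2 * A3 p := by
  have e : p 2 = 1 - p 0 - p 1 := by linarith
  unfold epsF aF A3
  rw [e]
  ring

theorem key_chan {a A lam : ℝ} (ha0 : 0 ≤ a) (ha1 : a ≤ 1) (hA : A ^ 2 ≤ a ^ 3) (h0 : 0 ≤ lam)
    (h1 : lam < 1) : (1 + lam) * A ≤ a + lam * a ^ 2 := by
  by_contra hcon
  have hcon' : a + lam * a ^ 2 < (1 + lam) * A := not_le.1 hcon
  have hY : 0 ≤ a + lam * a ^ 2 := by positivity
  have h2 := mul_self_lt_mul_self hY hcon'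
  have h3 : (1 + lam) ^ 2 * A ^ 2 ≤ (1 + lam) ^ 2 * a ^ 3 := by gcongr
  have h4 : 0 ≤ a ^ 2 * ((1 - a) * (1 - lam ^ 2 * a)) := by
    have : 0 ≤ 1 - a := by linarith
    have : 0 ≤ 1 - lam ^ 2 * a := by nlinarith
    positivity
  nlinarith

theorem oN_chan (lam : ℝ) (p : V) (h0 : 0 ≤ lam) (h1 : lam < 1) (hp : ∀ i, 0 ≤ p i)
    (hs : ∑ i, p i = 1) : lam ^ 3 * oN p ≤ oN (chanP lam p) := by
  rw [Fin.sum_univ_three] at hs
  have ha0 := aF_nonneg' hs
  have ha1 := aF_le_one' hp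
  have hA := A3_sq_le hs
  have hk := key_chan ha0 ha1 hA h0 h1
  have heps : 0 ≤ 1 - 3 * aF p + 2 * A3 p := by
    rw [← eps_identity hs]
    unfold epsF
    exact mul_nonneg (mul_nonneg (mul_nonneg (by norm_num) (hp 0)) (hp 1)) (hp 2)
  unfold oN
  rw [aF_chanP lam hs, A3_chanP]
  set a := aF p with ha
  set A := A3 p with hAd
  have hden : 0 < 1 - lam ^ 2 * a := by nlinarith
  rcases eq_or_lt_of_le ha1 with h | h
  · rw [h]
    simp only [sub_self, div_zero, mul_zero]
    rw [h] at hk hden heps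
    apply div_nonneg _ hden.le
    have : lam ≤ A := by linarith
    have h3 : 0 ≤ lam ^ 3 * (A - lam) := by
      have : 0 ≤ A - lam := by linarith
      positivity
    nlinarith
  · have hE : 0 < 1 - a := by linarith
    rw [← mul_div_assoc, div_le_div_iff₀ hE hden]
    have h3 : 0 ≤ lam ^ 3 * a * (1 - lam) * (a + lam * a ^ 2 - (1 + lam) * A) := by
      have : 0 ≤ 1 - lam := by linarith
      have : 0 ≤ a + lam * a ^ 2 - (1 + lam) * A := by linarith
      positivity
    nlinarith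

noncomputable def chiF (p : V) : ℝ := epsF p / (1 - aF p)

theorem chiF_nonneg {p : V} (h : InSimplex p) : 0 ≤ chiF p :=
  div_nonneg (epsF_nonneg h) (by linarith [aF_le_one h])

/-- cone data for the improved cone, from its two merging inequalities -/
theorem coneData_new {c : ℝ} (hc : 0 < c) (hJ1 : J1g oN gN c) (hJ2 : J2g oN chiF) :
    ConeData oN gN chiF c where
  cpos := hc
  g_nonneg := fun _ hp => gN_nonneg hp
  h_nonneg := fun _ hp => chiF_nonneg hp
  chan := oN_chan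
  delta := oN_delta
  j1 := hJ1
  j2 := hJ2

end Vale.Agent.P154
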