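import Vale.Agent.P154.Alg

namespace Vale.Agent.P154

theorem InSimplex.sum3 {p : V} (h : InSimplex p) : p 0 + p 1 + p 2 = 1 := by
  have := h.2
  rwa [Fin.sum_univ_three] at this

theorem aF_nonneg {p : V} (h : InSimplex p) : 0 ≤ aF p := by
  have h1 := h.sum3
  have h2 : p 2 = 1 - p 0 - p 1 := by linarith
  unfold aF
  rw [h2]
  nlinarith [sq_nonneg (p 0 - p 1), sq_nonneg (3 * p 0 - 1), sq_nonneg (3 * p 1 - 1),
    sq_nonneg (3 * (p 0 + p 1) - 2)]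

theorem aF_le_one {p : V} (h : InSimplex p) : aF p ≤ 1 := by
  have h0 := h.1 0
  have h1 := h.1 1
  have h2 := h.1 2
  unfold aF
  nlinarith [mul_pos h0 h1, mul_pos h1 h2, mul_pos h2 h0]

theorem epsF_nonneg {p : V} (h : InSimplex p) : 0 ≤ epsF p := by
  have h0 := h.1 0
  have h1 := h.1 1
  have h2 := h.1 2
  unfold epsF
  positivity

theorem A3_le_aF {p : V} (h : InSimplex p) : A3 p ≤ aF p := by
  have h0 := h.1 0
  have h1 := h.1 1
  have h2 := h.1 2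
  have hs := h.sum3
  have e : p 2 = 1 - p 0 - p 1 := by linarith
  have key : 9 * (p 0 * p 1 * p 2) ≤ (p 0 + p 1 + p 2) * (p 0 * p 1 + p 1 * p 2 + p 2 * p 0) := by
    nlinarith [mul_nonneg h0.le (sq_nonneg (p 1 - p 2)), mul_nonneg h1.le (sq_nonneg (p 2 - p 0)),
      mul_nonneg h2.le (sq_nonneg (p 0 - p 1))]
  rw [hs, one_mul] at key
  have e2 : A3 p = (27 * (p 0 * p 1 * p 2) - 9 * (p 0 * p 1 + p 1 * p 2 + p 2 * p 0)
      + 3 * (p 0 + p 1 + p 2) - 1) / 2 := by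
    unfold A3; ring
  rw [e2, hs]
  unfold aF
  linarith

theorem gF_nonneg {p : V} (h : InSimplex p) : 0 ≤ gF p := by
  have h1 := A3_le_aF h
  have h2 := aF_nonneg h
  unfold gF
  linarith

/-- the channel acting on normalised vectors -/
noncomputable def chanP (lam : ℝ) (p : V) : V := fun i => lam * p i + (1 - lam) / 3

theorem aF_chanP (lam : ℝ) {p : V} (h : p 0 + p 1 + p 2 = 1) :
    aF (chanP lam p) = lam ^ 2 * aF p := by
  have e : p 2 = 1 - p 0 - p 1 := by linarith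
  unfold aF chanP
  rw [e]
  ring

theorem A3_chanP (lam : ℝ) (p : V) : A3 (chanP lam p) = lam ^ 3 * A3 p := by
  unfold A3 chanP
  ring

theorem tv_sq_le {p : V} (h : p 0 + p 1 + p 2 = 1) :
    ((1 / 2) * ∑ i : Fin 3, |p i - 1 / 3|) ^ 2 ≤ aF p / 2 := by
  have e : p 2 = 1 - p 0 - p 1 := by linarith
  rw [Fin.sum_univ_three]
  have h3 : (|p 0 - 1 / 3| + |p 1 - 1 / 3| + |p 2 - 1 / 3|) ^ 2
      ≤ 3 * (|p 0 - 1 / 3| ^ 2 + |p 1 - 1 / 3| ^ 2 + |p 2 - 1 / 3| ^ 2) := by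
    nlinarith [sq_nonneg (|p 0 - 1 / 3| - |p 1 - 1 / 3|), sq_nonneg (|p 1 - 1 / 3| - |p 2 - 1 / 3|),
      sq_nonneg (|p 2 - 1 / 3| - |p 0 - 1 / 3|)]
  simp only [sq_abs] at h3
  have h4 : (p 0 - 1 / 3) ^ 2 + (p 1 - 1 / 3) ^ 2 + (p 2 - 1 / 3) ^ 2 = 2 / 3 * aF p := by
    unfold aF
    rw [e]
    ring
  rw [h4] at h3
  nlinarith

end Vale.Agent.P154
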