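import Mathlib

namespace Vale.Agent.P154.Refl

def addL {α : Type} (add : α → α → α) : List α → List α → List α
  | [], q => q
  | a :: p, [] => a :: p
  | a :: p, b :: q => add a b :: addL add p q

def smulL {α : Type} (mul : α → α → α) (c : α) : List α → List α
  | [] => []
  | a :: p => mul c a :: smulL mul c p

def mulL {α : Type} (zero : α) (add mul : α → α → α) : List α → List α → List α
  | [], _ => []
  | a :: p, q => addL add (smulL mul a q) (zero :: mulL zero add mul p q)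

def negL {α : Type} (neg : α → α) : List α → List α
  | [] => []
  | a :: p => neg a :: negL neg p

def nnL {α : Type} (nn : α → Bool) : List α → Bool
  | [] => true
  | a :: p => nn a && nnL nn p

noncomputable def evL {α : Type} (ev : α → ℝ) (x : ℝ) : List α → ℝ
  | [] => 0
  | a :: p => ev a + x * evL ev x p

section generic
variable {α : Type} {ev : α → ℝ} {x : ℝ}

theorem evL_addL {add : α → α → α} (hadd : ∀ a b, ev (add a b) = ev a + ev b) :
    ∀ p q, evL ev x (addL add p q) = evL ev x p + evL ev x q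
  | [], q => by simp [addL, evL]
  | a :: p, [] => by simp [addL, evL]
  | a :: p, b :: q => by
      simp only [addL, evL, hadd, evL_addL hadd p q]; ring

theorem evL_smulL {mul : α → α → α} (hmul : ∀ a b, ev (mul a b) = ev a * ev b) (c : α) :
    ∀ p, evL ev x (smulL mul c p) = ev c * evL ev x p
  | [] => by simp [smulL, evL]
  | a :: p => by
      simp only [smulL, evL, hmul, evL_smulL hmul c p]; ring

theorem evL_mulL {zero : α} {add mul : α → α → α} (hzero : ev zero = 0)
    (hadd : ∀ a b, ev (add a b) = ev a + ev b) (hmul : ∀ a b, ev (mul a b) = ev a * ev b) :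
    ∀ p q, evL ev x (mulL zero add mul p q) = evL ev x p * evL ev x q
  | [], q => by simp [mulL, evL]
  | a :: p, q => by
      simp only [mulL, evL, evL_addL hadd, evL_smulL hmul, hzero, evL_mulL hzero hadd hmul p q]
      ring

theorem evL_negL {neg : α → α} (hneg : ∀ a, ev (neg a) = - ev a) :
    ∀ p, evL ev x (negL neg p) = - evL ev x p
  | [] => by simp [negL, evL]
  | a :: p => by
      simp only [negL, evL, hneg, evL_negL hneg p]; ring

theorem evL_nonneg {nn : α → Bool} (hnn : ∀ a, nn a = true → 0 ≤ ev a) (hx : 0 ≤ x) :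
    ∀ p, nnL nn p = true → 0 ≤ evL ev x p
  | [], _ => by simp [evL]
  | a :: p, h => by
      simp only [nnL, Bool.and_eq_true] at h
      have h1 := hnn a h.1
      have h2 := evL_nonneg hnn hx p h.2
      simp only [evL]
      positivity

end generic

abbrev P1 := List ℤ
abbrev P2 := List P1
abbrev P3 := List P2
abbrev P4 := List P3

def add1 : P1 → P1 → P1 := addL (fun a b : ℤ => a + b)
def mul1 : P1 → P1 → P1 := mulL (0 : ℤ) (fun a b : ℤ => a + b) (fun a b : ℤ => a * b)
def neg1 : P1 → P1 := negL (fun a : ℤ => - a)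
def nn1 : P1 → Bool := nnL (fun a : ℤ => decide (0 ≤ a))
def add2 : P2 → P2 → P2 := addL add1
def mul2 : P2 → P2 → P2 := mulL [] add1 mul1
def neg2 : P2 → P2 := negL neg1
def nn2 : P2 → Bool := nnL nn1
def add3 : P3 → P3 → P3 := addL add2
def mul3 : P3 → P3 → P3 := mulL [] add2 mul2
def neg3 : P3 → P3 := negL neg2
def nn3 : P3 → Bool := nnL nn2
def add4 : P4 → P4 → P4 := addL add3
def mul4 : P4 → P4 → P4 := mulL [] add3 mul3
def neg4 : P4 → P4 := negL neg3
def nn4 : P4 → Bool := nnL nn3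

noncomputable def ev1 (w : ℝ) : P1 → ℝ := evL (fun a : ℤ => (a : ℝ)) w
noncomputable def ev2 (z w : ℝ) : P2 → ℝ := evL (ev1 w) z
noncomputable def ev3 (y z w : ℝ) : P3 → ℝ := evL (ev2 z w) y
noncomputable def ev4 (x y z w : ℝ) : P4 → ℝ := evL (ev3 y z w) x

variable {x y z w : ℝ}

theorem ev1_add (p q : P1) : ev1 w (add1 p q) = ev1 w p + ev1 w q :=
  evL_addL (by intro a b; push_cast; ring) p q
theorem ev1_mul (p q : P1) : ev1 w (mul1 p q) = ev1 w p * ev1 w q :=
  evL_mulL (by simp) (by intro a b; push_cast; ring) (by intro a b; push_cast; ring) p q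
theorem ev1_neg (p : P1) : ev1 w (neg1 p) = - ev1 w p :=
  evL_negL (by intro a; push_cast; ring) p
theorem ev1_nonneg (hw : 0 ≤ w) (p : P1) (h : nn1 p = true) : 0 ≤ ev1 w p :=
  evL_nonneg (by intro a ha; exact_mod_cast (of_decide_eq_true ha)) hw p h

theorem ev2_add (p q : P2) : ev2 z w (add2 p q) = ev2 z w p + ev2 z w q :=
  evL_addL ev1_add p q
theorem ev2_mul (p q : P2) : ev2 z w (mul2 p q) = ev2 z w p * ev2 z w q :=
  evL_mulL (by simp [ev1, evL]) ev1_add ev1_mul p q
theorem ev2_neg (p : P2) : ev2 z w (neg2 p) = - ev2 z w p :=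
  evL_negL ev1_neg p
theorem ev2_nonneg (hz : 0 ≤ z) (hw : 0 ≤ w) (p : P2) (h : nn2 p = true) : 0 ≤ ev2 z w p :=
  evL_nonneg (ev1_nonneg hw) hz p h

theorem ev3_add (p q : P3) : ev3 y z w (add3 p q) = ev3 y z w p + ev3 y z w q :=
  evL_addL ev2_add p q
theorem ev3_mul (p q : P3) : ev3 y z w (mul3 p q) = ev3 y z w p * ev3 y z w q :=
  evL_mulL (by simp [ev2, evL]) ev2_add ev2_mul p q
theorem ev3_neg (p : P3) : ev3 y z w (neg3 p) = - ev3 y z w p :=
  evL_negL ev2_neg p
theorem ev3_nonneg (hy : 0 ≤ y) (hz : 0 ≤ z) (hw : 0 ≤ w) (p : P3) (h : nn3 p = true) :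
    0 ≤ ev3 y z w p :=
  evL_nonneg (ev2_nonneg hz hw) hy p h

theorem ev4_add (p q : P4) : ev4 x y z w (add4 p q) = ev4 x y z w p + ev4 x y z w q :=
  evL_addL ev3_add p q
theorem ev4_mul (p q : P4) : ev4 x y z w (mul4 p q) = ev4 x y z w p * ev4 x y z w q :=
  evL_mulL (by simp [ev3, evL]) ev3_add ev3_mul p q
theorem ev4_neg (p : P4) : ev4 x y z w (neg4 p) = - ev4 x y z w p :=
  evL_negL ev3_neg p
theorem ev4_nonneg (hx : 0 ≤ x) (hy : 0 ≤ y) (hz : 0 ≤ z) (hw : 0 ≤ w) (p : P4)
    (h : nn4 p = true) : 0 ≤ ev4 x y z w p :=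
  evL_nonneg (ev3_nonneg hy hz hw) hx p h

def c4 (c : ℤ) : P4 := [[[[c]]]]
def X4 : P4 := [[], [[[1]]]]
def Y4 : P4 := [[[], [[1]]]]
def Z4 : P4 := [[[[], [1]]]]
def W4 : P4 := [[[[0, 1]]]]

theorem ev4_c4 (c : ℤ) : ev4 x y z w (c4 c) = (c : ℝ) := by
  simp [ev4, ev3, ev2, ev1, evL, c4]
theorem ev4_X4 : ev4 x y z w X4 = x := by
  simp [ev4, ev3, ev2, ev1, evL, X4]
theorem ev4_Y4 : ev4 x y z w Y4 = y := by
  simp [ev4, ev3, ev2, ev1, evL, Y4]
theorem ev4_Z4 : ev4 x y z w Z4 = z := by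
  simp [ev4, ev3, ev2, ev1, evL, Z4]
theorem ev4_W4 : ev4 x y z w W4 = w := by
  simp [ev4, ev3, ev2, ev1, evL, W4]

def sub4 (p q : P4) : P4 := add4 p (neg4 q)
theorem ev4_sub (p q : P4) : ev4 x y z w (sub4 p q) = ev4 x y z w p - ev4 x y z w q := by
  simp [sub4, ev4_add, ev4_neg]; ring

def pow4 (p : P4) : ℕ → P4
  | 0 => c4 1
  | n + 1 => mul4 p (pow4 p n)
theorem ev4_pow (p : P4) (n : ℕ) : ev4 x y z w (pow4 p n) = (ev4 x y z w p) ^ n := by
  induction n with
  | zero => simp [pow4, ev4_c4]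
  | succ n ih => simp [pow4, ev4_mul, ih]; ring


def smul1 (c : ℤ) : P1 → P1
  | [] => []
  | a :: p => (c * a) :: smul1 c p
def smul2 (c : ℤ) : P2 → P2
  | [] => []
  | a :: p => smul1 c a :: smul2 c p
def out1 (v : P2) : P1 → P3
  | [] => []
  | c :: p => smul2 c v :: out1 v p
def out2 (v : P2) : P2 → P4
  | [] => []
  | r :: p => out1 v r :: out2 v p

theorem ev1_smul1 (c : ℤ) : ∀ p : P1, ev1 w (smul1 c p) = c * ev1 w p
  | [] => by simp [smul1, ev1, evL]
  | a :: p => by
      have ih := ev1_smul1 c p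
      simp only [ev1] at ih
      simp only [smul1, ev1, evL, ih]; push_cast; ring
theorem ev2_smul2 (c : ℤ) : ∀ p : P2, ev2 z w (smul2 c p) = c * ev2 z w p
  | [] => by simp [smul2, ev2, evL]
  | a :: p => by
      have ih := ev2_smul2 c p
      simp only [ev2] at ih
      simp only [smul2, ev2, evL, ih, ev1_smul1]; ring
theorem ev3_out1 (v : P2) : ∀ r : P1, ev3 y z w (out1 v r) = ev1 y r * ev2 z w v
  | [] => by simp [out1, ev3, ev1, evL]
  | c :: p => by
      have ih := ev3_out1 v p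
      simp only [ev3, ev1] at ih
      simp only [out1, ev3, ev1, evL, ih, ev2_smul2]; ring
theorem ev4_out2 (v : P2) : ∀ u : P2, ev4 x y z w (out2 v u) = ev2 x y u * ev2 z w v
  | [] => by simp [out2, ev4, ev2, evL]
  | r :: p => by
      have ih := ev4_out2 v p
      simp only [ev4, ev2] at ih
      simp only [out2, ev4, ev2, evL, ih, ev3_out1]; ring

def lin2 : List ℤ → List P2 → P2
  | c :: cs, u :: us => add2 (smul2 c u) (lin2 cs us)
  | [], _ => []
  | _ :: _, [] => []
def bil4 : List (List ℤ) → List P2 → List P2 → P4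
  | r :: rs, u :: us, vs => add4 (out2 (lin2 r vs) u) (bil4 rs us vs)
  | [], _, _ => []
  | _ :: _, [], _ => []

noncomputable def linR : List ℤ → List ℝ → ℝ
  | c :: cs, u :: us => c * u + linR cs us
  | [], _ => 0
  | _ :: _, [] => 0
noncomputable def bilR : List (List ℤ) → List ℝ → List ℝ → ℝ
  | r :: rs, u :: us, vs => u * linR r vs + bilR rs us vs
  | [], _, _ => 0
  | _ :: _, [], _ => 0

theorem ev2_lin2 : ∀ (cs : List ℤ) (us : List P2),
    ev2 z w (lin2 cs us) = linR cs (us.map (ev2 z w))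
  | c :: cs, u :: us => by
      simp only [lin2, ev2_add, ev2_smul2, List.map_cons, linR, ev2_lin2 cs us]
  | [], _ => by simp [lin2, linR, ev2, evL]
  | _ :: _, [] => by simp [lin2, linR, ev2, evL]

theorem ev4_bil4 : ∀ (C : List (List ℤ)) (us vs : List P2),
    ev4 x y z w (bil4 C us vs) = bilR C (us.map (ev2 x y)) (vs.map (ev2 z w))
  | r :: rs, u :: us, vs => by
      simp only [bil4, ev4_add, ev4_out2, ev2_lin2, List.map_cons, bilR, ev4_bil4 rs us vs]
  | [], _, _ => by simp [bil4, bilR, ev4, evL]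
  | _ :: _, [], _ => by simp [bil4, bilR, ev4, evL]

def pow2 (p : P2) : ℕ → P2
  | 0 => [[1]]
  | n + 1 => mul2 p (pow2 p n)
theorem ev2_pow (p : P2) (n : ℕ) : ev2 z w (pow2 p n) = (ev2 z w p) ^ n := by
  induction n with
  | zero => simp [pow2, ev2, ev1, evL]
  | succ n ih => simp [pow2, ev2_mul, ih]; ring

end Vale.Agent.P154.Refl
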