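import Vale.Agent.P154.Tree

namespace Vale.Agent.P154

open Finset Filter Topology

/-- The data needed for the contraction argument: a cone functional `o`, nonnegative weights
`g`, `hh`, stability of the cone under the channel, and the two merging inequalities. -/
structure ConeData (o g hh : V → ℝ) (c : ℝ) : Prop where
  cpos : 0 < c
  g_nonneg : ∀ p, InSimplex p → 0 ≤ g p
  h_nonneg : ∀ p, InSimplex p → 0 ≤ hh p
  chan : ∀ (lam : ℝ) (p : V), 0 ≤ lam → lam < 1 → (∀ i, 0 ≤ p i) → ∑ i, p i = 1 →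
    lam ^ 3 * o p ≤ o (chanP lam p)
  delta : ∀ i : Fin 3, 0 ≤ o (fun j => if i = j then 1 else 0)
  j1 : J1g o g c
  j2 : J2g o hh

variable {o g hh : V → ℝ} {c : ℝ}

theorem good0_lk (D : ConeData o g hh c) (k : ℕ) {lam : ℝ} (h0 : 0 ≤ lam) (h1 : lam < 1) :
    ∀ n, Good0 (lk (k + 1) lam n) ∧ 0 ≤ Ex (lk (k + 1) lam n) o
  | 0 => ⟨good0_zero (k + 1) lam, Ex_zero_o D.delta (k + 1) lam⟩
  | n + 1 => by
    obtain ⟨hg, ho⟩ := good0_lk D k h0 h1 n
    have hG := good_chan hg h0 h1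
    have hO : 0 ≤ Ex (fun c => chanV lam (lk (k + 1) lam n c)) o :=
      le_trans (by positivity) (Ex_chan_o hg (D.chan lam · h0 h1))
    exact ⟨(good_pw hG (k + 1)).good0, Ex_pw_o_nonneg D.h_nonneg D.j2 hG hO k⟩

noncomputable def xs (d : ℕ) (lam : ℝ) (n : ℕ) : ℝ := Ex (lk d lam n) aF

theorem Ex_a_nonneg {X : Type} [Fintype X] {l : X → V} (h : Good0 l) : 0 ≤ Ex l aF :=
  Finset.sum_nonneg fun x _ =>
    mul_nonneg (div_pos (h.zpos x) (by norm_num)).le (aF_nonneg' (nrm_sum3 (h.zpos x)))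

theorem xs_succ_le (D : ConeData o g hh c) (k : ℕ) {lam : ℝ} (h0 : 0 ≤ lam)
    (h1 : lam < 1) (n : ℕ) :
    xs (k + 2) lam (n + 1) ≤ (k + 2 : ℕ) * lam ^ 2 * xs (k + 2) lam n
      - c * (lam ^ 2 * (1 - lam ^ 2) * xs (k + 2) lam n) ^ 2 := by
  have hc := D.cpos.le
  obtain ⟨hg, ho⟩ := good0_lk D (k + 1) h0 h1 n
  have hG := good_chan hg h0 h1
  have hO : 0 ≤ Ex (fun c => chanV lam (lk (k + 2) lam n c)) o :=
    le_trans (by positivity) (Ex_chan_o hg (D.chan lam · h0 h1))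
  have key := Ex_pw_a_le hc D.g_nonneg D.h_nonneg D.j1 D.j2 hG hO k
  rw [Ex_chan_a hg] at key
  have hal := Ex_chan_al hg (lam := lam)
  have hx : 0 ≤ Ex (lk (k + 2) lam n) aF := Ex_a_nonneg hg
  have hl : 0 ≤ lam ^ 2 * (1 - lam ^ 2) * Ex (lk (k + 2) lam n) aF := by
    have : 0 ≤ 1 - lam ^ 2 := by nlinarith
    positivity
  have hsq : (lam ^ 2 * (1 - lam ^ 2) * Ex (lk (k + 2) lam n) aF) ^ 2 ≤
      (Ex (fun c => chanV lam (lk (k + 2) lam n c)) alF) ^ 2 := by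
    gcongr
  have := mul_le_mul_of_nonneg_left hsq hc
  unfold xs
  calc Ex (lk (k + 2) lam (n + 1)) aF
      ≤ ((k + 2 : ℕ) : ℝ) * (lam ^ 2 * Ex (lk (k + 2) lam n) aF)
        - c * (Ex (fun c => chanV lam (lk (k + 2) lam n c)) alF) ^ 2 := key
    _ ≤ _ := by linarith

theorem tendsto_zero_of_rec {x : ℕ → ℝ} {c : ℝ} (hc : 0 < c) (h0 : ∀ n, 0 ≤ x n)
    (h : ∀ n, x (n + 1) ≤ x n - c * (x n) ^ 2) : Tendsto x atTop (𝓝 0) := by
  have hanti : Antitone x := antitone_nat_of_succ_le fun n => by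
    have := h n
    have h2 : 0 ≤ c * (x n) ^ 2 := by positivity
    linarith
  have hbdd : BddBelow (Set.range x) := ⟨0, by rintro _ ⟨n, rfl⟩; exact h0 n⟩
  have hlim := tendsto_atTop_ciInf hanti hbdd
  set L := ⨅ i, x i with hL
  have h1 : Tendsto (fun n => x (n + 1)) atTop (𝓝 L) := (tendsto_add_atTop_iff_nat 1).2 hlim
  have h2 : Tendsto (fun n => x n - c * (x n) ^ 2) atTop (𝓝 (L - c * L ^ 2)) :=
    hlim.sub ((hlim.pow 2).const_mul c)
  have h3 : L ≤ L - c * L ^ 2 := le_of_tendsto_of_tendsto' h1 h2 h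
  have h4 : L ^ 2 ≤ 0 := by nlinarith
  have h5 : L = 0 := by
    have := sq_nonneg L
    exact pow_eq_zero_iff (two_ne_zero) |>.1 (le_antisymm h4 this)
  rwa [h5] at hlim

noncomputable def tvF (p : V) : ℝ := (1 / 2) * ∑ i : Fin 3, |p i - 1 / 3|

theorem aSeq_eq (d : ℕ) (lam : ℝ) (n : ℕ) : aSeq d lam n = Ex (lk d lam n) tvF := by
  unfold aSeq Ex tvF
  refine Finset.sum_congr rfl fun c _ => ?_
  have e1 : marg d lam n c = Zs (lk d lam n c) / 3 := by
    unfold marg Zs lk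
    rw [← Finset.mul_sum]
    ring
  have e2 : ∀ i, post d lam n i c = nrm (lk d lam n c) i := by
    intro i
    unfold post nrm
    rw [e1]
    show 1 / 3 * lk d lam n c i / (Zs (lk d lam n c) / 3) = _
    rcases eq_or_ne (Zs (lk d lam n c)) 0 with hz | hz
    · simp [hz]
    · field_simp
  simp only [e1, e2]

theorem sq_Ex_le {X : Type} [Fintype X] {l : X → V} (h : Good0 l) (f : V → ℝ) :
    (Ex l f) ^ 2 ≤ Ex l (fun p => (f p) ^ 2) := by
  have hw : ∑ x, Zs (l x) / 3 = 1 := by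
    unfold Zs
    rw [← Finset.sum_div, Finset.sum_comm]
    simp only [h.norm]
    norm_num
  set t := Ex l f with ht
  have h1 : 0 ≤ ∑ x, Zs (l x) / 3 * (f (nrm (l x)) - t) ^ 2 :=
    Finset.sum_nonneg fun x _ => mul_nonneg (div_pos (h.zpos x) (by norm_num)).le (sq_nonneg _)
  have h2 : ∑ x, Zs (l x) / 3 * (f (nrm (l x)) - t) ^ 2 =
      Ex l (fun p => (f p) ^ 2) - 2 * t * Ex l f + t ^ 2 * ∑ x, Zs (l x) / 3 := by
    unfold Ex
    rw [Finset.mul_sum, Finset.mul_sum, ← Finset.sum_sub_distrib, ← Finset.sum_add_distrib]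
    refine Finset.sum_congr rfl fun x _ => ?_
    ring
  rw [h2, hw, ← ht] at h1
  nlinarith

theorem aSeq_sq_le {d : ℕ} {lam : ℝ} {n : ℕ} (hg : Good0 (lk d lam n)) :
    (aSeq d lam n) ^ 2 ≤ xs d lam n / 2 := by
  rw [aSeq_eq]
  refine (sq_Ex_le hg tvF).trans ?_
  unfold xs Ex
  rw [Finset.sum_div]
  refine Finset.sum_le_sum fun x _ => ?_
  have hw : 0 ≤ Zs (lk d lam n x) / 3 := (div_pos (hg.zpos x) (by norm_num)).le
  have := tv_sq_le (nrm_sum3 (hg.zpos x))
  rw [mul_div_assoc]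
  exact mul_le_mul_of_nonneg_left this hw

theorem aSeq_nonneg {d : ℕ} {lam : ℝ} {n : ℕ} (hg : Good0 (lk d lam n)) :
    0 ≤ aSeq d lam n := by
  rw [aSeq_eq]
  refine Finset.sum_nonneg fun x _ => mul_nonneg (div_pos (hg.zpos x) (by norm_num)).le ?_
  unfold tvF
  have : 0 ≤ ∑ i : Fin 3, |nrm (lk d lam n x) i - 1 / 3| := Finset.sum_nonneg fun i _ => abs_nonneg _
  positivity

/-- The reduction: cone data (in particular the two merging inequalities) imply
nonreconstruction for the three-state ferromagnetic Potts channel on every `d`-ary tree, `d ≥ 2`,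
up to and including the Kesten-Stigum bound. -/
theorem nonreconstruction_of_coneData (D : ConeData o g hh c) (d : ℕ) (hd : 2 ≤ d)
    (lam : ℝ) (h0 : 0 ≤ lam) (hKS : d * lam ^ 2 ≤ 1) : Tendsto (aSeq d lam) atTop (𝓝 0) := by
  have hc := D.cpos
  obtain ⟨k, rfl⟩ : ∃ k, d = k + 2 := ⟨d - 2, by omega⟩
  have hd' : (2 : ℝ) ≤ ((k + 2 : ℕ) : ℝ) := by push_cast; linarith [Nat.cast_nonneg (α := ℝ) k]
  have hl2 : lam ^ 2 ≤ 1 / 2 := by nlinarith [sq_nonneg lam]
  have h1 : lam < 1 := by nlinarith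
  have hgood : ∀ n, Good0 (lk (k + 2) lam n) := fun n => (good0_lk D (k + 1) h0 h1 n).1
  have hx0 : ∀ n, 0 ≤ xs (k + 2) lam n := fun n => Ex_a_nonneg (hgood n)
  have hrec := xs_succ_le D k h0 h1
  have hx : Tendsto (xs (k + 2) lam) atTop (𝓝 0) := by
    rcases eq_or_lt_of_le h0 with hz | hpos
    · have : ∀ n, xs (k + 2) lam (n + 1) = 0 := by
        intro n
        have h2 := hrec n
        have h3 : lam ^ 2 = 0 := by rw [← hz]; norm_num
        rw [h3] at h2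
        simp only [mul_zero, zero_mul, ne_eq, OfNat.ofNat_ne_zero, not_false_eq_true, zero_pow,
          sub_zero] at h2
        exact le_antisymm h2 (hx0 _)
      rw [← tendsto_add_atTop_iff_nat 1]
      simp only [this]
      exact tendsto_const_nhds
    · refine tendsto_zero_of_rec (c := c * (lam ^ 2 * (1 - lam ^ 2)) ^ 2) ?_ hx0 ?_
      · have : 0 < 1 - lam ^ 2 := by linarith
        positivity
      · intro n
        have h2 := hrec n
        have h3 : ((k + 2 : ℕ) : ℝ) * lam ^ 2 * xs (k + 2) lam n ≤ xs (k + 2) lam n := by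
          have := mul_le_mul_of_nonneg_right hKS (hx0 n)
          linarith
        calc xs (k + 2) lam (n + 1) ≤ _ := h2
          _ ≤ xs (k + 2) lam n - c * (lam ^ 2 * (1 - lam ^ 2) * xs (k + 2) lam n) ^ 2 := by linarith
          _ = _ := by ring
  have hs : Tendsto (fun n => Real.sqrt (xs (k + 2) lam n / 2)) atTop (𝓝 0) := by
    have h2 : Tendsto (fun n => xs (k + 2) lam n / 2) atTop (𝓝 0) := by
      simpa using hx.div_const 2
    have h3 := (Real.continuous_sqrt.tendsto 0).comp h2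
    rw [Real.sqrt_zero] at h3
    exact h3
  refine squeeze_zero (fun n => aSeq_nonneg (hgood n)) (fun n => ?_) hs
  exact Real.le_sqrt_of_sq_le (aSeq_sq_le (hgood n))

/-- The instance `o = A3 - (2/3) a^2`, `g = (11/6) a - (2/3) A3`, `h = 27 p0 p1 p2`. -/
theorem coneData_of_J {c : ℝ} (hc : 0 < c) (hJ1 : J1 c) (hJ2 : J2) : ConeData oF gF epsF c where
  cpos := hc
  g_nonneg := fun _ hp => gF_nonneg hp
  h_nonneg := fun _ hp => epsF_nonneg hp
  chan := fun _ p h0 h1 _ hs => oF_chan h0 h1.le p hs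
  delta := oF_delta
  j1 := hJ1
  j2 := hJ2

theorem nonreconstruction_of_J {c : ℝ} (hc : 0 < c) (hJ1 : J1 c) (hJ2 : J2) (d : ℕ) (hd : 2 ≤ d)
    (lam : ℝ) (h0 : 0 ≤ lam) (hKS : d * lam ^ 2 ≤ 1) : Tendsto (aSeq d lam) atTop (𝓝 0) :=
  nonreconstruction_of_coneData (coneData_of_J hc hJ1 hJ2) d hd lam h0 hKS

end Vale.Agent.P154
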