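import Vale.Agent.P154.Defs
import Vale.Agent.P154.Merge

namespace Vale.Agent.P154

open Finset

variable {X : Type} [Fintype X]

structure Good0 (l : X → V) : Prop where
  nonneg : ∀ x i, 0 ≤ l x i
  zpos : ∀ x, 0 < Zs (l x)
  norm : ∀ i, ∑ x, l x i = 1
  symm : ∀ (g : Equiv.Perm (Fin 3)) (H : V → ℝ), ∑ x, H (l x ∘ g) = ∑ x, H (l x)

theorem Good.good0 {l : X → V} (h : Good l) : Good0 l :=
  ⟨fun x i => (h.pos x i).le, fun x => Zs_pos (h.pos x), h.norm, h.symm⟩

noncomputable def chanV (lam : ℝ) (u : V) : V := fun i => ∑ j, chan lam i j * u j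

theorem chanV_apply (lam : ℝ) (u : V) (i : Fin 3) :
    chanV lam u i = lam * u i + (1 - lam) / 3 * Zs u := by
  unfold chanV chan Zs
  simp only [add_mul, Finset.sum_add_distrib, ← Finset.mul_sum, mul_assoc]
  simp

theorem Zs_chanV (lam : ℝ) (u : V) : Zs (chanV lam u) = Zs u := by
  have : Zs (chanV lam u) = ∑ i, (lam * u i + (1 - lam) / 3 * Zs u) := by
    unfold Zs
    exact Finset.sum_congr rfl fun i _ => chanV_apply lam u i
  rw [this, Finset.sum_add_distrib, ← Finset.mul_sum]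
  simp only [Finset.sum_const, Finset.card_univ, Fintype.card_fin, nsmul_eq_mul]
  unfold Zs
  push_cast
  ring

theorem chanV_comp (lam : ℝ) (u : V) (g : Equiv.Perm (Fin 3)) :
    chanV lam u ∘ g = chanV lam (u ∘ g) := by
  funext i
  simp only [Function.comp, chanV_apply, Zs_comp]

theorem nrm_chanV (lam : ℝ) {u : V} (hu : 0 < Zs u) : nrm (chanV lam u) = chanP lam (nrm u) := by
  funext i
  simp only [nrm, chanP, Zs_chanV, chanV_apply]
  field_simp

theorem good_chan {l : X → V} (h : Good0 l) {lam : ℝ} (h0 : 0 ≤ lam) (h1 : lam < 1) :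
    Good (fun x => chanV lam (l x)) where
  pos := fun x i => by
    rw [chanV_apply]
    have := h.zpos x
    have h2 := h.nonneg x i
    have h3 : 0 < (1 - lam) / 3 * Zs (l x) := by
      apply mul_pos _ this
      linarith
    have h4 := mul_nonneg h0 h2
    linarith
  norm := fun i => by
    simp only [chanV_apply, Finset.sum_add_distrib, ← Finset.mul_sum, h.norm]
    unfold Zs
    rw [Finset.sum_comm]
    simp only [h.norm]
    simp
  symm := fun g H => by
    simp only [chanV_comp]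
    exact h.symm g (fun u => H (chanV lam u))

theorem nrm_sum3 {u : V} (hu : 0 < Zs u) : nrm u 0 + nrm u 1 + nrm u 2 = 1 := by
  have : Zs u = u 0 + u 1 + u 2 := by unfold Zs; rw [Fin.sum_univ_three]
  simp only [nrm]
  rw [← add_div, ← add_div, ← this]
  exact div_self hu.ne'

theorem aF_nonneg' {p : V} (h1 : p 0 + p 1 + p 2 = 1) : 0 ≤ aF p := by
  have h2 : p 2 = 1 - p 0 - p 1 := by linarith
  unfold aF
  rw [h2]
  nlinarith [sq_nonneg (p 0 - p 1), sq_nonneg (3 * p 0 - 1), sq_nonneg (3 * p 1 - 1),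
    sq_nonneg (3 * (p 0 + p 1) - 2)]

theorem aF_le_one' {p : V} (h : ∀ i, 0 ≤ p i) : aF p ≤ 1 := by
  have h0 := h 0
  have h1 := h 1
  have h2 := h 2
  unfold aF
  nlinarith [mul_nonneg h0 h1, mul_nonneg h1 h2, mul_nonneg h2 h0]

theorem Ex_chan_a {l : X → V} (h : Good0 l) (lam : ℝ) :
    Ex (fun x => chanV lam (l x)) aF = lam ^ 2 * Ex l aF := by
  unfold Ex
  rw [Finset.mul_sum]
  refine Finset.sum_congr rfl fun x _ => ?_
  rw [Zs_chanV, nrm_chanV lam (h.zpos x), aF_chanP lam (nrm_sum3 (h.zpos x))]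
  ring

theorem nrm_sum {u : V} (hu : 0 < Zs u) : ∑ i, nrm u i = 1 := by
  rw [Fin.sum_univ_three]
  exact nrm_sum3 hu

theorem Ex_chan_o {o : V → ℝ} {l : X → V} (h : Good0 l) {lam : ℝ}
    (hch : ∀ p : V, (∀ i, 0 ≤ p i) → ∑ i, p i = 1 → lam ^ 3 * o p ≤ o (chanP lam p)) :
    lam ^ 3 * Ex l o ≤ Ex (fun x => chanV lam (l x)) o := by
  unfold Ex
  rw [Finset.mul_sum]
  refine Finset.sum_le_sum fun x _ => ?_
  rw [Zs_chanV, nrm_chanV lam (h.zpos x)]
  have hw : 0 ≤ Zs (l x) / 3 := (div_pos (h.zpos x) (by norm_num)).le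
  have h3 := hch (nrm (l x)) (fun i => div_nonneg (h.nonneg x i) (h.zpos x).le)
    (nrm_sum (h.zpos x))
  have h4 := mul_le_mul_of_nonneg_left h3 hw
  linarith

theorem oF_chan {lam : ℝ} (h0 : 0 ≤ lam) (h1 : lam ≤ 1) (p : V) (hs : ∑ i, p i = 1) :
    lam ^ 3 * oF p ≤ oF (chanP lam p) := by
  rw [Fin.sum_univ_three] at hs
  unfold oF
  rw [aF_chanP lam hs, A3_chanP]
  have h3 : 0 ≤ lam ^ 3 * (1 - lam) * (aF p) ^ 2 := by
    have : 0 ≤ 1 - lam := by linarith
    positivity
  nlinarith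

theorem Ex_chan_al {l : X → V} (h : Good0 l) {lam : ℝ} :
    lam ^ 2 * (1 - lam ^ 2) * Ex l aF ≤ Ex (fun x => chanV lam (l x)) alF := by
  unfold Ex
  rw [Finset.mul_sum]
  refine Finset.sum_le_sum fun x _ => ?_
  rw [Zs_chanV, nrm_chanV lam (h.zpos x)]
  unfold alF
  rw [aF_chanP lam (nrm_sum3 (h.zpos x))]
  have hw : 0 ≤ Zs (l x) / 3 := (div_pos (h.zpos x) (by norm_num)).le
  have ha0 := aF_nonneg' (nrm_sum3 (h.zpos x))
  have ha1 : aF (nrm (l x)) ≤ 1 :=
    aF_le_one' fun i => div_nonneg (h.nonneg x i) (h.zpos x).le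
  have h3 : 0 ≤ lam ^ 4 * (aF (nrm (l x)) * (1 - aF (nrm (l x)))) := by
    have : 0 ≤ 1 - aF (nrm (l x)) := by linarith
    positivity
  have h4 := mul_nonneg hw h3
  nlinarith

/-- likelihood vectors of the leaf configurations of the depth `n` tree -/
noncomputable def lk (d : ℕ) (lam : ℝ) (n : ℕ) : Config d n → V := fun c i => leafLaw d lam n i c

theorem lk_succ (d : ℕ) (lam : ℝ) (n : ℕ) :
    lk d lam (n + 1) = pw (fun c => chanV lam (lk d lam n c)) d := rfl

theorem good0_zero (d : ℕ) (lam : ℝ) : Good0 (lk d lam 0) where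
  nonneg := fun x i => by
    show 0 ≤ (if (show Fin 3 from x) = i then (1 : ℝ) else 0)
    split_ifs <;> norm_num
  zpos := fun x => by
    have : ∀ y : Fin 3, 0 < ∑ i : Fin 3, (if y = i then (1 : ℝ) else 0) := by
      intro y
      simp
    exact this x
  norm := fun i => by
    show ∑ x : Fin 3, (if x = i then (1 : ℝ) else 0) = 1
    simp
  symm := fun g H => by
    show ∑ x : Fin 3, H ((fun i => if x = i then (1 : ℝ) else 0) ∘ g) =
      ∑ x : Fin 3, H (fun i => if x = i then (1 : ℝ) else 0)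
    refine Fintype.sum_equiv g.symm _ _ ?_
    intro x
    congr 1
    funext i
    simp only [Function.comp]
    congr 1
    rw [eq_iff_iff]
    exact ⟨fun h => by rw [h]; simp, fun h => by rw [← h]; simp⟩

theorem Ex_zero_o {o : V → ℝ} (ho : ∀ i : Fin 3, 0 ≤ o (fun j => if i = j then 1 else 0))
    (d : ℕ) (lam : ℝ) : 0 ≤ Ex (lk d lam 0) o := by
  show 0 ≤ ∑ x : Fin 3, Zs (fun i => if x = i then (1 : ℝ) else 0) / 3 *
    o (nrm (fun i => if x = i then (1 : ℝ) else 0))
  refine Finset.sum_nonneg fun x _ => ?_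
  have hZ : Zs (fun i => if x = i then (1 : ℝ) else 0) = 1 := by simp [Zs]
  have hn : nrm (fun i => if x = i then (1 : ℝ) else 0) = fun i => if x = i then (1 : ℝ) else 0 := by
    funext i
    simp only [nrm, hZ, div_one]
  rw [hn, hZ]
  exact mul_nonneg (by norm_num) (ho x)

theorem oF_delta (i : Fin 3) : 0 ≤ oF (fun j => if i = j then 1 else 0) := by
  fin_cases i <;> simp [oF, A3, aF] <;> norm_num

theorem Ex_zero_a (d : ℕ) (lam : ℝ) : Ex (lk d lam 0) aF = 1 := by
  show ∑ x : Fin 3, Zs (fun i => if x = i then (1 : ℝ) else 0) / 3 *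
    aF (nrm (fun i => if x = i then (1 : ℝ) else 0)) = 1
  have hZ : ∀ x : Fin 3, Zs (fun i => if x = i then (1 : ℝ) else 0) = 1 := by intro x; simp [Zs]
  rw [Fin.sum_univ_three]
  simp [hZ, nrm, aF]
  norm_num

end Vale.Agent.P154
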